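import Vale.Agent.P207.H387.Rec

/-!
# P207, line N4, LEMMA Q (Taylor version), part 5: smooth sections have values in the S-bundle
-/

set_option linter.all false

open Metric Set Filter Topology
open scoped ContDiff Nat

noncomputable section

namespace Vale.Agent.P207.H387

open Vale.Agent.P207.H686 (ZD Ch)
open Vale.Agent.P207.H7 (iter_comp_right iter_comp_left iter_eval)
open Vale.Agent.P207.N3.H790 (tay ray_taylor)

variable {E W X : Type} [NormedAddCommGroup E] [NormedSpace ℝ E] [FiniteDimensional ℝ E]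
  [NormedAddCommGroup W] [NormedSpace ℝ W] [FiniteDimensional ℝ W]

theorem finDim_cmm (j : ℕ) : FiniteDimensional ℝ (E [×j]→L[ℝ] W) :=
  FiniteDimensional.of_injective
    (ContinuousMultilinearMap.toMultilinearMapLinear :
      (E [×j]→L[ℝ] W) →ₗ[ℝ] MultilinearMap ℝ (fun _ : Fin j => E) W)
    ContinuousMultilinearMap.toMultilinearMap_injective

namespace SBd

variable {D : ZD E W X} (H : SBd D)

include H in
/-- compactness of frames and polynomials -/
theorem extract {k : ℕ} (w : ℕ → X) (p : ℕ → Cf E W k) (h1 : ∀ n, ‖p n‖ = 1) (h2 : ∀ n, Sy (p n))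
    (h3 : ∀ n, psh (prj (D.Sm (w n))) (ContinuousLinearMap.id ℝ E) (p n) = p n) :
    ∃ (w' : X) (θ : ℕ → ℕ) (p' : Cf E W k), StrictMono θ ∧
      TendstoUniformlyOn (fun n => D.N (w (θ n))) (D.N w') atTop (ball 0 1) ∧
      Tendsto (fun n => p (θ n)) atTop (𝓝 p') ∧ ‖p'‖ = 1 ∧ Sy p' ∧
      ∀ x, ev p' x ∈ D.Sm w' → ev p' x = 0 := by
  haveI hfW : ∀ j : Fin k, FiniteDimensional ℝ (E [×(j : ℕ)]→L[ℝ] W) := fun j => finDim_cmm _
  haveI hpW : ∀ j : Fin k, ProperSpace (E [×(j : ℕ)]→L[ℝ] W) := fun j => FiniteDimensional.proper ℝ _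
  obtain ⟨w', ψ, hψ, hN⟩ := D.cpt w
  have hs : ∀ n, p (ψ n) ∈ sphere (0 : Cf E W k) 1 := fun n => by
    rw [mem_sphere_zero_iff_norm]; exact h1 _
  obtain ⟨p', hp', χ, hχ, hlim⟩ := (isCompact_sphere (0 : Cf E W k) 1).tendsto_subseq hs
  have hN' : TendstoUniformlyOn (fun n => D.N (w (ψ (χ n)))) (D.N w') atTop (ball 0 1) :=
    fun u hu => hχ.tendsto_atTop.eventually (hN u hu)
  have hlim' : Tendsto (fun n => p (ψ (χ n))) atTop (𝓝 p') := hlim
  refine ⟨w', ψ ∘ χ, p', hψ.comp hχ, hN', hlim', ?_, Sy.limit hlim' fun n => h2 _, fun x hx => ?_⟩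
  · rwa [mem_sphere_zero_iff_norm] at hp'
  · refine perp_limit (S := fun n => D.Sm (w (ψ (χ n)))) (fun n => H.rank _ _) ?_
      (w := fun n => ev (p (ψ (χ n))) x) (fun n => ?_) (tendsto_ev hlim' x) hx
    · intro ψ' hψ' s t hs ht
      exact H.closed (fun n => w (ψ (χ (ψ' n)))) w'
        (fun u hu => hψ'.tendsto_atTop.eventually (hN' u hu)) s t hs ht
    · have := congrArg (fun c => ev c x) (h3 (ψ (χ n)))
      simp only [ev_psh] at this
      exact this

theorem ev_sub {k : ℕ} (c c' : Cf E W k) (x : E) : ev (c - c') x = ev c x - ev c' x := by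
  unfold ev
  rw [← Finset.sum_sub_distrib]
  rfl

/-- uniform convergence of the pairings -/
theorem unif_pair {k : ℕ} {w : ℕ → X} {w' : X} {p : ℕ → Cf E W k} {p' : Cf E W k}
    (hN : TendstoUniformlyOn (fun n => D.N (w n)) (D.N w') atTop (ball 0 1))
    (hp : Tendsto p atTop (𝓝 p')) :
    TendstoUniformlyOn (fun n x => D.N (w n) x (ev (p n) x)) (fun x => D.N w' x (ev p' x)) atTop
      (ball 0 1) := by
  rw [Metric.tendstoUniformlyOn_iff] at hN ⊢
  intro ε hε
  have hK : 0 ≤ D.K := (norm_nonneg _).trans (D.bd w' 0 (by simp))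
  have hA : 0 < (k : ℝ) * ‖p'‖ + 1 := by positivity
  have hB : 0 < D.K * k + 1 := by positivity
  have h1 := hN (ε / (2 * ((k : ℝ) * ‖p'‖ + 1))) (by positivity)
  have h2 : ∀ᶠ n in atTop, ‖p n - p'‖ < ε / (2 * (D.K * k + 1)) := by
    have := (Metric.tendsto_nhds.1 hp) (ε / (2 * (D.K * k + 1))) (by positivity)
    simpa [dist_eq_norm] using this
  filter_upwards [h1, h2] with n h1 h2 x hx
  have h3 := h1 x hx
  rw [dist_eq_norm] at h3 ⊢
  have hx1 : ‖x‖ ≤ 1 := (mem_ball_zero_iff.1 hx).le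
  have e : D.N w' x (ev p' x) - D.N (w n) x (ev (p n) x) =
      (D.N w' x - D.N (w n) x) (ev p' x) - D.N (w n) x (ev (p n - p') x) := by
    rw [ev_sub, map_sub, ContinuousLinearMap.sub_apply]
    ring
  rw [e]
  have a1 : ‖(D.N w' x - D.N (w n) x) (ev p' x)‖ ≤
      ε / (2 * ((k : ℝ) * ‖p'‖ + 1)) * ((k : ℝ) * ‖p'‖) := by
    refine (ContinuousLinearMap.le_opNorm _ _).trans ?_
    have := norm_ev_le p' hx1
    gcongr
  have a2 : ‖D.N (w n) x (ev (p n - p') x)‖ ≤ D.K * (k * (ε / (2 * (D.K * k + 1)))) := by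
    refine (ContinuousLinearMap.le_opNorm _ _).trans ?_
    have b1 := D.bd (w n) x hx
    have b2 := norm_ev_le (p n - p') hx1
    have b3 : (k : ℝ) * ‖p n - p'‖ ≤ k * (ε / (2 * (D.K * k + 1))) := by gcongr
    exact mul_le_mul b1 (b2.trans b3) (norm_nonneg _) hK
  have a3 : ε / (2 * ((k : ℝ) * ‖p'‖ + 1)) * ((k : ℝ) * ‖p'‖) < ε / 2 := by
    rw [div_mul_eq_mul_div, div_lt_div_iff₀ (by positivity) (by norm_num)]
    nlinarith [mul_nonneg (Nat.cast_nonneg (α := ℝ) k) (norm_nonneg p')]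
  have a4 : D.K * (k * (ε / (2 * (D.K * k + 1)))) ≤ ε / 2 := by
    have : D.K * (k * (ε / (2 * (D.K * k + 1)))) = (ε * (D.K * k)) / (2 * (D.K * k + 1)) := by
      field_simp
    rw [this, div_le_div_iff₀ (by positivity) (by norm_num)]
    nlinarith [mul_nonneg hK (Nat.cast_nonneg (α := ℝ) k)]
  calc _ ≤ ‖(D.N w' x - D.N (w n) x) (ev p' x)‖ + ‖D.N (w n) x (ev (p n - p') x)‖ :=
        norm_sub_le _ _
    _ < ε := by linarith

/-- uniform convergence from explicit bounds -/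
theorem unif_of_bound {F : ℕ → E → ℝ} {G : ℕ → E → ℝ} {f : E → ℝ} {S : Set E} {b : ℕ → ℝ}
    (hb : Tendsto b atTop (𝓝 0)) (h : ∀ n, ∀ x ∈ S, |F n x - G n x| ≤ b n)
    (hG : TendstoUniformlyOn G f atTop S) : TendstoUniformlyOn F f atTop S := by
  rw [Metric.tendstoUniformlyOn_iff] at hG ⊢
  intro ε hε
  filter_upwards [hG (ε / 2) (by positivity), hb.eventually (gt_mem_nhds (half_pos hε))] with n h1 h2 x hx
  have h3 := h1 x hx
  have h4 := h n x hx
  rw [Real.dist_eq] at h3 ⊢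
  have h5 : f x - F n x = (f x - G n x) - (F n x - G n x) := by ring
  rw [h5]
  have := abs_sub (f x - G n x) (F n x - G n x)
  linarith

end SBd

end Vale.Agent.P207.H387
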