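import Vale.Agent.P207.H387.Es2

/-!
# P207, line N4, LEMMA Q (Taylor version), part 7: the gap for polynomial sections
-/

set_option linter.all false

open Metric Set Filter Topology
open scoped ContDiff Nat

noncomputable section

namespace Vale.Agent.P207.H387

open Vale.Agent.P207.H686 (ZD Ch)
open Vale.Agent.P207.H7 (iter_comp_right iter_comp_left iter_eval)

variable {E W X : Type} [NormedAddCommGroup E] [NormedSpace ℝ E] [FiniteDimensional ℝ E]
  [NormedAddCommGroup W] [NormedSpace ℝ W] [FiniteDimensional ℝ W]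

theorem psh_smul {k : ℕ} (T : W →L[ℝ] W) (B : E →L[ℝ] E) (a : ℝ) (c : Cf E W k) :
    psh T B (a • c) = a • psh T B c := by
  funext i
  ext u
  show T (a • c i fun j => B (u j)) = a • T (c i fun j => B (u j))
  rw [map_smul]

/-- a smooth function has bounded derivatives on a ball -/
theorem exists_bounds {V : Type} [NormedAddCommGroup V] [NormedSpace ℝ V] {σ : E → V}
    (hσ : ContDiff ℝ ∞ σ) (ρ : ℝ) : ∃ M : ℕ → ℝ, ∀ j, ∀ x ∈ ball (0 : E) ρ,
      ‖iteratedFDeriv ℝ j σ x‖ ≤ M j := by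
  haveI : ProperSpace E := FiniteDimensional.proper ℝ E
  have : ∀ j : ℕ, ∃ M : ℝ, ∀ x ∈ ball (0 : E) ρ, ‖iteratedFDeriv ℝ j σ x‖ ≤ M := by
    intro j
    have hc : Continuous (iteratedFDeriv ℝ j σ) :=
      hσ.continuous_iteratedFDeriv (by exact_mod_cast le_top)
    obtain ⟨M, hM⟩ := (isCompact_closedBall (0 : E) ρ).exists_bound_of_continuousOn hc.continuousOn
    exact ⟨M, fun x hx => hM x (ball_subset_closedBall hx)⟩
  choose M hM using this
  exact ⟨M, fun j x hx => hM j x hx⟩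

namespace SBd

variable {D : ZD E W X} (H : SBd D)

include H in
/-- **the gap** -/
theorem gap {k i : ℕ} (hk : 3 ≤ k) (hok : Ok D k i) (K' : ℝ) : ∃ η : ℝ, 0 < η ∧
    ∀ (v : X) (P : Cf E W k), Sy P → psh (prj (D.Sm v)) (ContinuousLinearMap.id ℝ E) P = P →
      ∀ (G : E → ℝ) (ε : ℝ), SD i (K' * ‖P‖) 1 G →
        (∀ x ∈ ball (0 : E) 1, |D.N v x (ev P x) - G x| ≤ ε) → η * ‖P‖ ≤ ε := by
  by_contra hcon
  push Not at hcon
  have hη : ∀ n : ℕ, (0 : ℝ) < 1 / ((n : ℝ) + 1) := fun n => by positivity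
  choose v P hS hr G ε hG hb hlt using fun n : ℕ => hcon _ (hη n)
  have hε0 : ∀ n, 0 ≤ ε n := fun n => (abs_nonneg _).trans (hb n 0 (by simp))
  have hP0 : ∀ n, 0 < ‖P n‖ := by
    intro n
    by_contra hn
    have h0 : ‖P n‖ = 0 := le_antisymm (not_lt.1 hn) (norm_nonneg _)
    have := hlt n
    rw [h0, mul_zero] at this
    exact absurd (hε0 n) (not_le.2 this)
  set p : ℕ → Cf E W k := fun n => ‖P n‖⁻¹ • P n with hp
  have hp1 : ∀ n, ‖p n‖ = 1 := by
    intro n
    rw [hp]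
    simp only [norm_smul, norm_inv, norm_norm]
    exact inv_mul_cancel₀ (hP0 n).ne'
  obtain ⟨w', θ, p', hθ, hN, hpl, hp'1, hp'2, hperp⟩ := H.extract v p hp1 (fun n => (hS n).smul _)
    (fun n => by rw [hp]; simp only [psh_smul]; rw [hr n])
  set F : ℕ → E → ℝ := fun n x => ‖P (θ n)‖⁻¹ * G (θ n) x with hF
  have hFs : ∀ n, SD i |K'| 1 (F n) := by
    intro n
    refine ((hG (θ n)).smul (‖P (θ n)‖⁻¹)).mono ?_ le_rfl
    have := hP0 (θ n)
    rw [abs_of_nonneg (by positivity)]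
    have e : ‖P (θ n)‖⁻¹ * (K' * ‖P (θ n)‖) = K' := by field_simp
    rw [e]
    exact le_abs_self _
  have hFl : TendstoUniformlyOn F (fun x => D.N w' x (ev p' x)) atTop (ball 0 1) := by
    refine unif_of_bound (b := fun n => 1 / ((n : ℝ) + 1)) tendsto_one_div_add_atTop_nhds_zero_nat
      (fun n x hx => ?_) (unif_pair hN hpl)
    have hpos := hP0 (θ n)
    have e1 : F n x - D.N (v (θ n)) x (ev (p (θ n)) x) = - (‖P (θ n)‖⁻¹ *
        (D.N (v (θ n)) x (ev (P (θ n)) x) - G (θ n) x)) := by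
      rw [hF, hp]
      simp only [ev_smul, map_smul, smul_eq_mul]
      ring
    rw [e1, abs_neg, abs_mul, abs_of_nonneg (by positivity)]
    have h1 := hb (θ n) x hx
    have h2 := (hlt (θ n)).le
    calc ‖P (θ n)‖⁻¹ * |D.N (v (θ n)) x (ev (P (θ n)) x) - G (θ n) x|
        ≤ ‖P (θ n)‖⁻¹ * (1 / ((θ n : ℝ) + 1) * ‖P (θ n)‖) := by
          gcongr
          exact h1.trans h2
      _ = 1 / ((θ n : ℝ) + 1) := by field_simp
      _ ≤ 1 / ((n : ℝ) + 1) := by
          have : (n : ℝ) ≤ (θ n : ℝ) := by exact_mod_cast hθ.id_le n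
          gcongr
  have hall : ∀ x0 ∈ ball (0 : E) 1, ev p' x0 = 0 := by
    intro x0 hx0
    refine hperp x0 ?_
    obtain ⟨R, S, v', hBC⟩ := D.BC_ex w' x0 hx0
    rw [H.bc hBC]
    have hKb : 0 < D.Kb := lt_of_lt_of_le one_pos D.Kb1
    have hx0' : 0 < 1 - ‖x0‖ := by
      have := mem_ball_zero_iff.1 hx0
      linarith
    set ρ : ℝ := min 1 ((1 - ‖x0‖) / D.Kb) with hρ
    have hρ0 : 0 < ρ := lt_min one_pos (by positivity)
    have hρ1 : ρ ≤ 1 := min_le_left _ _
    have hin : ∀ y ∈ ball (0 : E) ρ, x0 + R.symm y ∈ ball (0 : E) 1 := by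
      intro y hy
      rw [mem_ball_zero_iff] at hy ⊢
      have h1 := (D.BC_R hBC).2 y
      have h2 : ‖y‖ < (1 - ‖x0‖) / D.Kb := hy.trans_le (min_le_right _ _)
      rw [lt_div_iff₀ hKb] at h2
      calc ‖x0 + R.symm y‖ ≤ ‖x0‖ + ‖R.symm y‖ := norm_add_le _ _
        _ ≤ ‖x0‖ + D.Kb * ‖y‖ := by gcongr
        _ < 1 := by linarith
    obtain ⟨e, he, heb, heq⟩ := D.BC_N hBC
    have hsub : ball (0 : E) ρ ⊆ {x | x ∈ ball (0 : E) 1 ∧ x0 + R.symm x ∈ ball (0 : E) 1} :=
      fun y hy => ⟨ball_subset_ball hρ1 hy, hin y hy⟩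
    set σ : E → W := fun y => S (ev p' (x0 + R.symm y)) with hσ
    have hσs : ContDiff ℝ ∞ σ := by
      have h1 : ContDiff ℝ ∞ (fun y : E => x0 + R.symm y) := contDiff_const.add R.symm.contDiff
      exact S.contDiff.comp ((contDiff_ev p').comp h1)
    obtain ⟨M, hM⟩ := exists_bounds hσs ρ
    have hσ0 : σ 0 = S (ev p' x0) := by
      rw [hσ]
      simp
    rw [← hσ0]
    set U : Set E := {z | z + x0 ∈ ball (0 : E) 1} with hU
    have hUo : IsOpen U := isOpen_ball.preimage (by fun_prop)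
    have hmaps : MapsTo (R.symm : E →L[ℝ] E) (ball 0 ρ) U := by
      intro y hy
      show R.symm y + x0 ∈ ball (0 : E) 1
      rw [add_comm]
      exact hin y hy
    have hRn : ‖(R.symm : E →L[ℝ] E)‖ ≤ D.Kb :=
      ContinuousLinearMap.opNorm_le_bound _ hKb.le (D.BC_R hBC).2
    have hF1 : ∀ n, SD i (|K'| * D.Kb ^ i) ρ (fun y => F n (R.symm y + x0)) := by
      intro n
      have hs : ContDiffOn ℝ ∞ (fun z => F n (z + x0)) U :=
        (hFs n).1.comp (contDiff_id.add contDiff_const).contDiffOn (fun z hz => hz)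
      refine ⟨hs.comp (R.symm : E →L[ℝ] E).contDiff.contDiffOn hmaps, fun y hy => ?_⟩
      refine (iter_comp_right hUo (R.symm : E →L[ℝ] E) hs hmaps hy i).trans ?_
      rw [iteratedFDeriv_comp_add_right]
      have h1 := (hFs n).2 _ (hmaps hy)
      gcongr
    have he1 : SD i (∑ j ∈ Finset.range (i + 1), (i.choose j : ℝ) * D.M j * M (i - j)) ρ
        (fun y => e y (σ y)) := by
      have h1 : ContDiffOn ℝ ∞ e (ball 0 ρ) := he.mono hsub
      refine ⟨smooth_eval h1 hσs.contDiffOn, fun y hy => ?_⟩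
      exact eval_bound isOpen_ball h1 hσs.contDiffOn
        (fun j _ z hz => heb j z (hsub hz).1 (hsub hz).2) (fun j _ z hz => hM j z hz) hy
    refine H.es (hok.mono hk) hρ0 hρ1 hσs.contDiffOn hM (fun n => (hF1 n).add he1) ?_
    rw [Metric.tendstoUniformlyOn_iff] at hFl ⊢
    intro ε' hε'
    filter_upwards [hFl ε' hε'] with n hn y hy
    have h1 := hn _ (hin y hy)
    have h2 := heq y (hsub hy).1 (hsub hy).2 (ev p' (x0 + R.symm y))
    rw [Real.dist_eq] at h1 ⊢
    have h3 : D.N v' y (σ y) = D.N w' (x0 + R.symm y) (ev p' (x0 + R.symm y)) + e y (σ y) := h2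
    rw [h3]
    have h4 : R.symm y + x0 = x0 + R.symm y := add_comm _ _
    rw [h4]
    have h5 : D.N w' (x0 + R.symm y) (ev p' (x0 + R.symm y)) + e y (σ y) -
        (F n (x0 + R.symm y) + e y (σ y)) =
        D.N w' (x0 + R.symm y) (ev p' (x0 + R.symm y)) - F n (x0 + R.symm y) := by ring
    rw [h5]
    exact h1
  have hz : p' = 0 := eq_zero_of_ev hp'2 one_pos hall
  rw [hz, norm_zero] at hp'1
  exact zero_ne_one hp'1

end SBd

end Vale.Agent.P207.H387
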