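import Vale.Agent.P207.H387.Gap
import Vale.Agent.P207.H686.SBun2

/-!
# P207, line N4, row LEMMA Q (owner helper387), Taylor version

If `σ` is a smooth section of the forms along the disc of `v`, `F` is smooth and
`|⟨N_v, σ⟩ - F| ≤ δ`, then the distance of `σ 0` to the S-bundle is `O(δ ^ (1 - e))` for every
`e > 0`, uniformly in `v`. The polynomial sections form a finite dimensional space; the Taylor
polynomial of `σ` is pushed forward by the flow (`recur`), the gap (`gap`) bounds its size there.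
-/

set_option linter.all false

open Metric Set Filter Topology
open scoped ContDiff Nat

noncomputable section

namespace Vale.Agent.P207.H387

open Vale.Agent.P207.H686 (ZD Ch)
open Vale.Agent.P207.H7 (iter_comp_right iter_comp_left iter_eval)
open Vale.Agent.P207.N3.H790 (tay ray_taylor)

variable {E W X : Type} [NormedAddCommGroup E] [NormedSpace ℝ E] [FiniteDimensional ℝ E]
  [NormedAddCommGroup W] [NormedSpace ℝ W] [FiniteDimensional ℝ W]

/-- helper686's theorems on the S-bundle -/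
theorem sBd (D : ZD E W X) : SBd D where
  rank := D.sm_rank
  bound := D.sm_bound
  step := fun h s => D.sm_step h s
  bc := fun h s => D.sm_bc h s
  closed := fun v w h s t hs ht => D.sm_closed h hs ht
  fin := fun k v s O f K' hk hO hsub hne hf hb hlim => D.sm_fin hk hO hsub hne f hf hb hlim
  L2 := fun h s => D.St_L' h s

/-- the choice of the length of the orbit -/
theorem exists_len {lam Lam : ℝ} (hl0 : 0 < lam) (hl1 : lam < 1) (hL1 : 1 ≤ Lam) {e : ℝ}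
    (he : 0 < e) : ∃ k : ℕ, 3 ≤ k ∧ ∀ n0 : ℕ, ∀ δ : ℝ, 0 < δ → δ ≤ 1 → ∃ n : ℕ, n0 ≤ n ∧
      (lam ^ k) ^ n ≤ δ ∧ Lam ^ n * δ ≤ Lam ^ (n0 + 1) * δ ^ (1 - e) := by
  set a : ℝ := -Real.log lam with ha
  have ha0 : 0 < a := by
    rw [ha]
    have := Real.log_neg hl0 hl1
    linarith
  set b : ℝ := Real.log Lam with hb
  have hb0 : 0 ≤ b := Real.log_nonneg hL1
  obtain ⟨k1, hk1⟩ := exists_nat_ge (b / (a * e))
  refine ⟨max 3 k1, le_max_left _ _, fun n0 δ hδ hδ1 => ?_⟩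
  set k : ℕ := max 3 k1 with hk
  have hk0 : (0 : ℝ) < k := by
    have : 3 ≤ k := le_max_left _ _
    exact_mod_cast (by omega : 0 < k)
  have hkb : b ≤ k * (a * e) := by
    have h1 : b / (a * e) ≤ (k : ℝ) := hk1.trans (by exact_mod_cast le_max_right _ _)
    rwa [div_le_iff₀ (by positivity)] at h1
  set t : ℝ := -Real.log δ / (k * a) with ht
  have hlog : Real.log δ ≤ 0 := Real.log_nonpos hδ.le hδ1
  have ht0 : 0 ≤ t := div_nonneg (by linarith) (by positivity)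
  have htk : t * (k * a) = -Real.log δ := by
    rw [ht]
    field_simp
  refine ⟨n0 + ⌈t⌉₊, Nat.le_add_right _ _, ?_, ?_⟩
  · have h1 : t ≤ ((n0 + ⌈t⌉₊ : ℕ) : ℝ) := by
      push_cast
      have := Nat.le_ceil t
      have : (0 : ℝ) ≤ n0 := Nat.cast_nonneg _
      linarith [Nat.le_ceil t]
    have h2 : (lam ^ k) ^ (n0 + ⌈t⌉₊) = Real.exp (-(a * k * ((n0 + ⌈t⌉₊ : ℕ) : ℝ))) := by
      rw [← pow_mul, ← Real.exp_log (pow_pos hl0 (k * (n0 + ⌈t⌉₊))), Real.log_pow]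
      congr 1
      rw [ha]
      push_cast
      ring
    rw [h2]
    calc Real.exp (-(a * k * ((n0 + ⌈t⌉₊ : ℕ) : ℝ))) ≤ Real.exp (Real.log δ) := by
          apply Real.exp_le_exp.2
          have h3 : t * (k * a) ≤ ((n0 + ⌈t⌉₊ : ℕ) : ℝ) * (k * a) := by gcongr
          nlinarith
      _ = δ := Real.exp_log hδ
  · have h1 : ((n0 + ⌈t⌉₊ : ℕ) : ℝ) ≤ (n0 + 1 : ℕ) + t := by
      push_cast
      have := (Nat.ceil_lt_add_one ht0).le
      linarith
    have h2 : Lam ^ (n0 + ⌈t⌉₊) ≤ Lam ^ (n0 + 1) * Real.exp (b * t) := by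
      have hLp : 0 < Lam := lt_of_lt_of_le one_pos hL1
      have e1 : Lam ^ (n0 + ⌈t⌉₊) = Real.exp (b * ((n0 + ⌈t⌉₊ : ℕ) : ℝ)) := by
        rw [← Real.exp_log (pow_pos hLp (n0 + ⌈t⌉₊)), Real.log_pow]
        congr 1
        rw [hb]
        ring
      have e2 : Lam ^ (n0 + 1) = Real.exp (b * ((n0 + 1 : ℕ) : ℝ)) := by
        rw [← Real.exp_log (pow_pos hLp (n0 + 1)), Real.log_pow]
        congr 1
        rw [hb]
        ring
      rw [e1, e2, ← Real.exp_add]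
      apply Real.exp_le_exp.2
      nlinarith
    have h3 : Real.exp (b * t) * δ ≤ δ ^ (1 - e) := by
      rw [Real.rpow_def_of_pos hδ]
      have e3 : δ = Real.exp (Real.log δ) := (Real.exp_log hδ).symm
      calc Real.exp (b * t) * δ = Real.exp (b * t) * Real.exp (Real.log δ) := by rw [← e3]
        _ = Real.exp (b * t + Real.log δ) := (Real.exp_add _ _).symm
        _ ≤ Real.exp (Real.log δ * (1 - e)) := by
            apply Real.exp_le_exp.2
            have h4 : b * t ≤ (k * (a * e)) * t := by gcongr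
            have h5 : (k * (a * e)) * t = e * (-Real.log δ) := by
              rw [← htk]
              ring
            nlinarith
    have hLp : 0 < Lam ^ (n0 + 1) := pow_pos (lt_of_lt_of_le one_pos hL1) _
    calc Lam ^ (n0 + ⌈t⌉₊) * δ ≤ (Lam ^ (n0 + 1) * Real.exp (b * t)) * δ := by gcongr
      _ = Lam ^ (n0 + 1) * (Real.exp (b * t) * δ) := by ring
      _ ≤ Lam ^ (n0 + 1) * δ ^ (1 - e) := by gcongr

/-- **LEMMA Q**, at the centre of the disc -/
theorem lemmaQ (D : ZD E W X) : ∀ e : ℝ, 0 < e → ∀ r : ℝ, 0 < r → r ≤ 1 → ∀ M : ℕ → ℝ,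
    ∃ C : ℝ, 0 ≤ C ∧
    ∀ (v : X) (σ : E → W) (F : E → ℝ) (δ : ℝ), ContDiffOn ℝ ∞ σ (ball 0 r) →
      ContDiffOn ℝ ∞ F (ball 0 r) →
      (∀ k, ∀ x ∈ ball (0 : E) r, ‖iteratedFDeriv ℝ k σ x‖ ≤ M k) →
      (∀ k, ∀ x ∈ ball (0 : E) r, ‖iteratedFDeriv ℝ k F x‖ ≤ M k) → 0 < δ → δ ≤ 1 →
      (∀ x ∈ ball (0 : E) r, |D.N v x (σ x) - F x| ≤ δ) →
      ∃ s ∈ D.Sm v, ‖σ 0 - s‖ ≤ C * δ ^ (1 - e) := by
  intro e he r hr hr1 M
  have H := sBd D
  have hl0 := D.lam0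
  have hl1 := D.lam1
  have hL1 := D.Lam1
  have hc := one_le_cW W
  obtain ⟨k, hk, hlen⟩ := exists_len hl0 hl1 hL1 he
  obtain ⟨i, hok⟩ := SBd.exists_ok D k
  obtain ⟨K, hK, hrec⟩ := H.recur hok
  obtain ⟨η, hη, hgap⟩ := H.gap hk hok K
  obtain ⟨KP, hKP⟩ := H.ph_pair k M
  obtain ⟨n0, hn0⟩ : ∃ n0 : ℕ, D.lam ^ n0 ≤ r := (exists_pow_lt_of_lt_one hr hl1).imp fun _ h => h.le
  set C2 : ℝ := |D.K| * (cW W * |M k|) + |M k + KP| with hC2
  have hC20 : 0 ≤ C2 := by positivity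
  refine ⟨cW W * (C2 + 1) / η * D.Lam ^ (n0 + 1), by positivity, ?_⟩
  intro v σ F δ hσ hF hσM hFM hδ hδ1 hsmall
  have hDK : 0 ≤ D.K := (norm_nonneg _).trans (D.bd v 0 (by simp))
  obtain ⟨n, hn, hn1, hn2⟩ := hlen n0 δ hδ hδ1
  have hPh := hKP v σ r hr1 hσ hσM
  set F1 : E → ℝ := fun x => F x - SBd.Ph D v x (σ x) with hF1
  have hF1s : SD k (M k + KP) r F1 := SD.sub ⟨hF, hFM k⟩ hPh
  set P : Cf E W k := tc k σ with hP
  set G0 : E → ℝ := ev (tc k F1) with hG0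
  have hPsy : Sy P := sy_tc k hr hσ
  have hPt : ∀ x ∈ ball (0 : E) r, ‖σ x - ev P x‖ ≤ M k * ‖x‖ ^ k := fun x hx => by
    rw [hP, ev_tc]
    exact ray_taylor k hσ (hσM k) x hx
  have hFt : ∀ x ∈ ball (0 : E) r, ‖F1 x - G0 x‖ ≤ (M k + KP) * ‖x‖ ^ k := fun x hx => by
    rw [hG0, ev_tc]
    exact ray_taylor k hF1s.1 hF1s.2 x hx
  have hP0 : ev P 0 = σ 0 := by
    have := hPt 0 (mem_ball_self hr)
    rw [norm_zero, zero_pow (by omega), mul_zero] at this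
    exact (sub_eq_zero.1 (norm_le_zero_iff.1 this)).symm
  have hG0s : SD i 0 1 G0 := by
    refine ⟨(contDiff_ev _).contDiffOn, fun x hx => ?_⟩
    have h1 := iter_ev (tc k F1) i (mem_ball_zero_iff.1 hx).le
    rwa [dC_zero hok.2.1, zero_mul] at h1
  obtain ⟨A, L, v', hch⟩ := SBd.exists_ch (D := D) v n
  have hlam : D.lam ^ n * 1 ≤ r := by
    rw [mul_one]
    exact (pow_le_pow_of_le_one hl0.le hl1.le hn).trans hn0
  obtain ⟨G, hGs, hGe⟩ := hrec hch P 1 le_rfl G0 0 le_rfl (hG0s.mono le_rfl (hlam.trans hr1))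
  rw [mul_zero, zero_add] at hGs
  set Q := SBd.pp D A L v' P with hQ
  have hbr : ∀ x ∈ ball (0 : E) 1, |D.N v' x (ev Q x) - G x| ≤ (C2 + 1) * δ := by
    intro x hx
    have hx1 : ‖x‖ < 1 := mem_ball_zero_iff.1 hx
    have hy : ‖A.symm x‖ ≤ D.lam ^ n := by
      refine (SBd.ch_A hch x).trans ?_
      calc D.lam ^ n * ‖x‖ ≤ D.lam ^ n * 1 := by gcongr
        _ = _ := mul_one _
    have hyr : A.symm x ∈ ball (0 : E) r := by
      rw [mem_ball_zero_iff]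
      calc ‖A.symm x‖ ≤ D.lam ^ n * ‖x‖ := SBd.ch_A hch x
        _ < D.lam ^ n * 1 := by gcongr
        _ ≤ r := hlam
    have hb := SBd.bracket (D := D) (P := P) (v := v) (σ := σ) (g := F (A.symm x))
      (δ := δ) (m := M k * ‖A.symm x‖ ^ k) (ball_subset_ball hr1 hyr) (hPt _ hyr) (hsmall _ hyr)
    have hb2 := hFt _ hyr
    rw [Real.norm_eq_abs] at hb2
    have hpow : ‖A.symm x‖ ^ k ≤ δ := by
      calc ‖A.symm x‖ ^ k ≤ (D.lam ^ n) ^ k := by gcongr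
        _ = (D.lam ^ k) ^ n := by rw [← pow_mul, ← pow_mul, mul_comm]
        _ ≤ δ := hn1
    have e1 : D.N v' x (ev Q x) - G x =
        (D.N v (A.symm x) (prj (D.Sm v) (ev P (A.symm x))) - F1 (A.symm x)) +
          (F1 (A.symm x) - G0 (A.symm x)) := by
      rw [hGe x hx]
      ring
    rw [e1]
    have hn3 : 0 ≤ ‖A.symm x‖ ^ k := by positivity
    have b1 : D.K * (cW W * (M k * ‖A.symm x‖ ^ k)) ≤ |D.K| * (cW W * |M k|) * δ := by
      have c1 : M k * ‖A.symm x‖ ^ k ≤ |M k| * δ :=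
        mul_le_mul (le_abs_self _) hpow hn3 (abs_nonneg _)
      calc D.K * (cW W * (M k * ‖A.symm x‖ ^ k)) ≤ |D.K| * (cW W * (|M k| * δ)) := by
            rw [abs_of_nonneg hDK]
            gcongr
        _ = _ := by ring
    have b2 : (M k + KP) * ‖A.symm x‖ ^ k ≤ |M k + KP| * δ :=
      mul_le_mul (le_abs_self _) hpow hn3 (abs_nonneg _)
    calc _ ≤ |D.N v (A.symm x) (prj (D.Sm v) (ev P (A.symm x))) - F1 (A.symm x)| +
          |F1 (A.symm x) - G0 (A.symm x)| := abs_add_le _ _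
      _ ≤ (D.K * (cW W * (M k * ‖A.symm x‖ ^ k)) + δ) + (M k + KP) * ‖A.symm x‖ ^ k :=
          add_le_add hb hb2
      _ ≤ (|D.K| * (cW W * |M k|) * δ + δ) + |M k + KP| * δ := by gcongr
      _ = (C2 + 1) * δ := by rw [hC2]; ring
  have hη2 := hgap v' Q (hPsy.psh _ _) (SBd.pp_prj A L v' P) G ((C2 + 1) * δ) hGs hbr
  have h1 := H.prj_le hch (σ 0)
  have h2 : ev Q 0 = prj (D.Sm v') (L (σ 0)) := by
    rw [hQ, SBd.ev_pp, map_zero, hP0]
  rw [← h2] at h1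
  refine ⟨σ 0 - prj (D.Sm v) (σ 0), sub_prj_mem _ _, ?_⟩
  rw [sub_sub_cancel]
  have h3 : ‖Q‖ ≤ (C2 + 1) * δ / η := by
    rw [le_div_iff₀ hη, mul_comm]
    exact hη2
  calc ‖prj (D.Sm v) (σ 0)‖ ≤ cW W * D.Lam ^ n * ‖ev Q 0‖ := h1
    _ ≤ cW W * D.Lam ^ n * ((C2 + 1) * δ / η) := by
        gcongr
        exact (norm_ev_zero_le Q).trans h3
    _ = cW W * (C2 + 1) / η * (D.Lam ^ n * δ) := by ring
    _ ≤ cW W * (C2 + 1) / η * (D.Lam ^ (n0 + 1) * δ ^ (1 - e)) := by gcongr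
    _ = cW W * (C2 + 1) / η * D.Lam ^ (n0 + 1) * δ ^ (1 - e) := by ring

end Vale.Agent.P207.H387
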