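import Vale.Agent.P207.H387.LemQ

/-!
# P207, line N4, LEMMA Q at every point of the disc (helper387)
-/

set_option linter.all false

open Metric Set Filter Topology
open scoped ContDiff Nat

noncomputable section

namespace Vale.Agent.P207.H387

open Vale.Agent.P207.H686 (ZD Ch)
open Vale.Agent.P207.H7 (iter_comp_right iter_comp_left iter_eval)

variable {E W X : Type} [NormedAddCommGroup E] [NormedSpace ℝ E] [FiniteDimensional ℝ E]
  [NormedAddCommGroup W] [NormedSpace ℝ W] [FiniteDimensional ℝ W]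

/-- bounds after an affine change of the base point -/
theorem aff_bound {V : Type} [NormedAddCommGroup V] [NormedSpace ℝ V] {f : E → V} {r r' ρ Kb : ℝ}
    {q : E} {B : E →L[ℝ] E} (hB : ‖B‖ ≤ Kb) (hq : ‖q‖ ≤ r') (hρ : Kb * ρ ≤ r - r')
    (hKb : 0 < Kb) (hf : ContDiffOn ℝ ∞ f (ball 0 r)) {M : ℕ → ℝ}
    (hM : ∀ k, ∀ x ∈ ball (0 : E) r, ‖iteratedFDeriv ℝ k f x‖ ≤ M k) :
    ContDiffOn ℝ ∞ (fun y => f (q + B y)) (ball 0 ρ) ∧
      (∀ k, ∀ x ∈ ball (0 : E) ρ, ‖iteratedFDeriv ℝ k (fun y => f (q + B y)) x‖ ≤ M k * Kb ^ k) ∧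
      ∀ x ∈ ball (0 : E) ρ, q + B x ∈ ball (0 : E) r := by
  have hin : ∀ x ∈ ball (0 : E) ρ, q + B x ∈ ball (0 : E) r := by
    intro x hx
    rw [mem_ball_zero_iff] at hx ⊢
    calc ‖q + B x‖ ≤ ‖q‖ + ‖B x‖ := norm_add_le _ _
      _ ≤ r' + Kb * ‖x‖ := add_le_add hq ((B.le_opNorm x).trans (by gcongr))
      _ < r' + Kb * ρ := by gcongr
      _ ≤ r := by linarith
  have e : (fun y => f (q + B y)) = fun y => f (B y + q) := by
    funext y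
    rw [add_comm]
  set U : Set E := {z | z + q ∈ ball (0 : E) r} with hU
  have hUo : IsOpen U := isOpen_ball.preimage (by fun_prop)
  have hmaps : MapsTo B (ball 0 ρ) U := by
    intro y hy
    show B y + q ∈ ball (0 : E) r
    rw [add_comm]
    exact hin y hy
  have hs : ContDiffOn ℝ ∞ (fun z => f (z + q)) U :=
    hf.comp (contDiff_id.add contDiff_const).contDiffOn (fun z hz => hz)
  refine ⟨?_, fun k x hx => ?_, hin⟩
  · rw [e]
    exact hs.comp B.contDiff.contDiffOn hmaps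
  · rw [e]
    refine (iter_comp_right hUo B hs hmaps hx k).trans ?_
    rw [iteratedFDeriv_comp_add_right]
    have h1 := hM k _ (hmaps hx)
    have h2 : 0 ≤ M k := (norm_nonneg _).trans h1
    gcongr

/-- **LEMMA Q**, at every point of a smaller disc -/
theorem lemmaQ_at (D : ZD E W X) : ∀ e : ℝ, 0 < e → ∀ r r' : ℝ, r' < r → r ≤ 1 →
    ∀ M : ℕ → ℝ, ∃ C : ℝ, 0 ≤ C ∧
    ∀ (v : X) (σ : E → W) (F : E → ℝ) (δ : ℝ), ContDiffOn ℝ ∞ σ (ball 0 r) →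
      ContDiffOn ℝ ∞ F (ball 0 r) →
      (∀ k, ∀ x ∈ ball (0 : E) r, ‖iteratedFDeriv ℝ k σ x‖ ≤ M k) →
      (∀ k, ∀ x ∈ ball (0 : E) r, ‖iteratedFDeriv ℝ k F x‖ ≤ M k) → 0 < δ → δ ≤ 1 →
      (∀ x ∈ ball (0 : E) r, |D.N v x (σ x) - F x| ≤ δ) →
      ∀ q ∈ ball (0 : E) r', ∃ s ∈ D.Sm v, ‖σ q - s‖ ≤ C * δ ^ (1 - e) := by
  intro e he r r' hrr hr1 M
  have hKb : 0 < D.Kb := lt_of_lt_of_le one_pos D.Kb1
  set ρ : ℝ := min 1 ((r - r') / D.Kb) with hρ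
  have hρ0 : 0 < ρ := lt_min one_pos (div_pos (by linarith) hKb)
  have hρ1 : ρ ≤ 1 := min_le_left _ _
  have hρ2 : D.Kb * ρ ≤ r - r' := by
    have : ρ ≤ (r - r') / D.Kb := min_le_right _ _
    calc D.Kb * ρ ≤ D.Kb * ((r - r') / D.Kb) := by gcongr
      _ = r - r' := by field_simp
  -- the bounds of the data at the new base point
  set M1 : ℕ → ℝ := fun k => D.Kb * (|M k| * D.Kb ^ k) with hM1
  set M2 : ℕ → ℝ := fun k => |M k| * D.Kb ^ k +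
    ∑ j ∈ Finset.range (k + 1), (k.choose j : ℝ) * D.M j * M1 (k - j) with hM2
  obtain ⟨C, hC, hlem⟩ := lemmaQ D e he ρ hρ0 hρ1 (fun k => max (M1 k) (M2 k))
  refine ⟨D.Kb * C, by positivity, ?_⟩
  intro v σ F δ hσ hF hσM hFM hδ hδ1 hsmall q hq
  have hqn : ‖q‖ ≤ r' := (mem_ball_zero_iff.1 hq).le
  have hq1 : q ∈ ball (0 : E) 1 := ball_subset_ball (hrr.le.trans hr1) hq
  obtain ⟨R, S, v', hBC⟩ := D.BC_ex v q hq1
  obtain ⟨ee, hes, heb, heq⟩ := D.BC_N hBC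
  have hRn : ‖(R.symm : E →L[ℝ] E)‖ ≤ D.Kb :=
    ContinuousLinearMap.opNorm_le_bound _ hKb.le (D.BC_R hBC).2
  have hSn : ‖(S : W →L[ℝ] W)‖ ≤ D.Kb :=
    ContinuousLinearMap.opNorm_le_bound _ hKb.le (D.BC_S hBC).1
  have hMp : ∀ k, M k * D.Kb ^ k ≤ |M k| * D.Kb ^ k := fun k => by
    have := le_abs_self (M k)
    gcongr
  obtain ⟨a1, a2, a3⟩ := aff_bound (q := q) (B := (R.symm : E →L[ℝ] E)) hRn hqn hρ2 hKb hσ hσM
  obtain ⟨b1, b2, -⟩ := aff_bound (q := q) (B := (R.symm : E →L[ℝ] E)) hRn hqn hρ2 hKb hF hFM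
  set σ' : E → W := fun y => (S : W →L[ℝ] W) (σ (q + (R.symm : E →L[ℝ] E) y)) with hσ'
  have hσ's : ContDiffOn ℝ ∞ σ' (ball 0 ρ) := (S : W →L[ℝ] W).contDiff.comp_contDiffOn a1
  have hσ'b : ∀ k, ∀ x ∈ ball (0 : E) ρ, ‖iteratedFDeriv ℝ k σ' x‖ ≤ M1 k := by
    intro k x hx
    refine (iter_comp_left isOpen_ball (S : W →L[ℝ] W) a1 hx k).trans ?_
    exact mul_le_mul hSn ((a2 k x hx).trans (hMp k)) (norm_nonneg _) hKb.le
  have hsub : ball (0 : E) ρ ⊆ {x | x ∈ ball (0 : E) 1 ∧ q + R.symm x ∈ ball (0 : E) 1} :=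
    fun y hy => ⟨ball_subset_ball hρ1 hy, ball_subset_ball hr1 (a3 y hy)⟩
  have hes' : ContDiffOn ℝ ∞ ee (ball 0 ρ) := hes.mono hsub
  have hg1 : ContDiffOn ℝ ∞ (fun y => ee y (σ' y)) (ball 0 ρ) := SBd.smooth_eval hes' hσ's
  have hg2 : ∀ k, ∀ x ∈ ball (0 : E) ρ, ‖iteratedFDeriv ℝ k (fun y => ee y (σ' y)) x‖ ≤
      ∑ j ∈ Finset.range (k + 1), (k.choose j : ℝ) * D.M j * M1 (k - j) := by
    intro k x hx
    exact SBd.eval_bound isOpen_ball hes' hσ's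
      (fun j _ z hz => heb j z (hsub hz).1 (hsub hz).2) (fun j _ z hz => hσ'b j z hz) hx
  set F' : E → ℝ := fun y => F (q + (R.symm : E →L[ℝ] E) y) + ee y (σ' y) with hF'
  have hF's : ContDiffOn ℝ ∞ F' (ball 0 ρ) := b1.add hg1
  have hF'b : ∀ k, ∀ x ∈ ball (0 : E) ρ, ‖iteratedFDeriv ℝ k F' x‖ ≤ M2 k := by
    intro k x hx
    have h1 : SD k (|M k| * D.Kb ^ k) ρ (fun y => F (q + (R.symm : E →L[ℝ] E) y)) :=
      ⟨b1, fun y hy => (b2 k y hy).trans (hMp k)⟩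
    exact (h1.add ⟨hg1, hg2 k⟩).2 x hx
  obtain ⟨s, hs, hsd⟩ := hlem v' σ' F' δ hσ's hF's
    (fun k x hx => (hσ'b k x hx).trans (le_max_left _ _))
    (fun k x hx => (hF'b k x hx).trans (le_max_right _ _)) hδ hδ1 (fun y hy => by
      have h1 := heq y (hsub hy).1 (hsub hy).2 (σ (q + R.symm y))
      have h2 := hsmall _ (a3 y hy)
      have e1 : D.N v' y (σ' y) - F' y = D.N v (q + R.symm y) (σ (q + R.symm y)) -
          F (q + R.symm y) := by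
        have e2 : D.N v' y (σ' y) = D.N v (q + R.symm y) (σ (q + R.symm y)) + ee y (σ' y) := h1
        have e3 : F' y = F (q + R.symm y) + ee y (σ' y) := rfl
        rw [e2, e3]
        ring
      rw [e1]
      exact h2)
  have hs' : S (S.symm s) ∈ D.Sm v' := by
    rw [ContinuousLinearEquiv.apply_symm_apply]
    exact hs
  refine ⟨S.symm s, (D.sm_bc hBC _).2 hs', ?_⟩
  have e4 : σ q - S.symm s = S.symm (σ' 0 - s) := by
    rw [map_sub, hσ']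
    simp
  rw [e4]
  calc ‖S.symm (σ' 0 - s)‖ ≤ D.Kb * ‖σ' 0 - s‖ := (D.BC_S hBC).2 _
    _ ≤ D.Kb * (C * δ ^ (1 - e)) := by gcongr
    _ = D.Kb * C * δ ^ (1 - e) := by ring

end Vale.Agent.P207.H387
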