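import Vale.Agent.P207.N3.H790.Taylor

/-!
# P207, line N4, LEMMA Q (Taylor version), part 2: polynomial sections

`Cf E W k` : coefficients of polynomial maps `E → W` of degree `< k`.
-/

set_option linter.all false

open Metric Set Filter Topology
open scoped ContDiff Nat

noncomputable section

namespace Vale.Agent.P207.H387

open Vale.Agent.P207.N3.H790

variable {E W : Type} [NormedAddCommGroup E] [NormedSpace ℝ E] [NormedAddCommGroup W]
  [NormedSpace ℝ W]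

/-- coefficient families -/
abbrev Cf (E W : Type) [NormedAddCommGroup E] [NormedSpace ℝ E] [NormedAddCommGroup W]
    [NormedSpace ℝ W] (k : ℕ) : Type := ∀ i : Fin k, E [×(i : ℕ)]→L[ℝ] W

/-- the value of a polynomial -/
def ev {k : ℕ} (c : Cf E W k) (x : E) : W := ∑ i, c i fun _ => x

/-- symmetric coefficients -/
def Sy {k : ℕ} (c : Cf E W k) : Prop :=
  ∀ (i : Fin k) (σ : Equiv.Perm (Fin i)) (v : Fin i → E), c i (v ∘ σ) = c i v

/-- push forward -/
def psh {k : ℕ} (T : W →L[ℝ] W) (B : E →L[ℝ] E) (c : Cf E W k) : Cf E W k :=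
  fun i => T.compContinuousMultilinearMap ((c i).compContinuousLinearMap fun _ => B)

theorem ev_psh {k : ℕ} (T : W →L[ℝ] W) (B : E →L[ℝ] E) (c : Cf E W k) (x : E) :
    ev (psh T B c) x = T (ev c (B x)) := by
  unfold ev psh
  rw [map_sum]
  rfl

theorem psh_psh {k : ℕ} (T T' : W →L[ℝ] W) (B B' : E →L[ℝ] E) (c : Cf E W k) :
    psh T B (psh T' B' c) = psh (T ∘L T') (B' ∘L B) c := by
  funext i
  ext v
  rfl

theorem Sy.psh {k : ℕ} {c : Cf E W k} (h : Sy c) (T : W →L[ℝ] W) (B : E →L[ℝ] E) :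
    Sy (psh T B c) := by
  intro i σ v
  show T (c i (fun j => B ((v ∘ σ) j))) = T (c i (fun j => B (v j)))
  have := h i σ (fun j => B (v j))
  rw [← this]
  rfl

theorem norm_psh {k : ℕ} (T : W →L[ℝ] W) (B : E →L[ℝ] E) (c : Cf E W k) (i : Fin k) :
    ‖psh T B c i‖ ≤ ‖T‖ * (‖c i‖ * ‖B‖ ^ (i : ℕ)) := by
  unfold psh
  refine (ContinuousLinearMap.norm_compContinuousMultilinearMap_le _ _).trans ?_
  gcongr
  have := (c i).norm_compContinuousLinearMap_le (fun _ : Fin i => B)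
  simpa using this

theorem norm_psh_le {k : ℕ} {T : W →L[ℝ] W} {B : E →L[ℝ] E} {t b : ℝ} (hT : ‖T‖ ≤ t)
    (hB : ‖B‖ ≤ b) (hb : 1 ≤ b) (c : Cf E W k) : ‖psh T B c‖ ≤ t * b ^ k * ‖c‖ := by
  have ht : 0 ≤ t := (norm_nonneg _).trans hT
  refine (pi_norm_le_iff_of_nonneg (by positivity)).2 fun i => ?_
  refine (norm_psh T B c i).trans ?_
  have h1 : ‖B‖ ^ (i : ℕ) ≤ b ^ k :=
    (pow_le_pow_left₀ (norm_nonneg _) hB _).trans (pow_le_pow_right₀ hb i.2.le)
  have h2 : ‖c i‖ ≤ ‖c‖ := norm_le_pi_norm c i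
  calc ‖T‖ * (‖c i‖ * ‖B‖ ^ (i : ℕ)) ≤ t * (‖c‖ * b ^ k) := by gcongr
    _ = t * b ^ k * ‖c‖ := by ring

/-- a polynomial which vanishes near zero has no coefficients -/
theorem eq_zero_of_ev {k : ℕ} {c : Cf E W k} (hs : Sy c) {ρ : ℝ} (hρ : 0 < ρ)
    (h : ∀ x ∈ ball (0 : E) ρ, ev c x = 0) : c = 0 := by
  have key : ∀ n : ℕ, ∀ i : Fin k, (i : ℕ) = n → ∀ x : E, c i (fun _ => x) = 0 := by
    intro n
    induction n using Nat.strong_induction_on with
    | _ n ih =>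
      intro i hi x
      set δ : ℝ := min 1 (ρ / (‖x‖ + 1)) with hδ
      have hx1 : 0 < ‖x‖ + 1 := by positivity
      have hδ0 : 0 < δ := lt_min one_pos (div_pos hρ hx1)
      set C : ℝ := ∑ j : Fin k, ‖c j (fun _ => x)‖ with hC
      refine coeff_zero_of_bigO (i := n) (C := C) hδ0 fun t ht => ?_
      have ht1 : t ≤ 1 := ht.2.le.trans (min_le_left _ _)
      have htx : t • x ∈ ball (0 : E) ρ := by
        rw [mem_ball_zero_iff, norm_smul, Real.norm_eq_abs, abs_of_pos ht.1]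
        have h1 : t < ρ / (‖x‖ + 1) := ht.2.trans_le (min_le_right _ _)
        rw [lt_div_iff₀ hx1] at h1
        nlinarith [norm_nonneg x, ht.1]
      have h0 := h _ htx
      unfold ev at h0
      have hterm : ∀ j : Fin k, c j (fun _ => t • x) = t ^ (j : ℕ) • c j (fun _ => x) := by
        intro j
        have := (c j).map_smul_univ (fun _ => t) (fun _ => x)
        simpa using this
      simp only [hterm] at h0
      have h1 : t ^ n • c i (fun _ => x) =
          - ∑ j ∈ Finset.univ.erase i, t ^ (j : ℕ) • c j (fun _ => x) := by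
        rw [← Finset.add_sum_erase _ _ (Finset.mem_univ i)] at h0
        rw [← hi]
        exact eq_neg_of_add_eq_zero_left h0
      rw [h1, norm_neg]
      refine (norm_sum_le _ _).trans ?_
      rw [hC, Finset.sum_mul]
      refine (Finset.sum_le_sum (g := fun j : Fin k => ‖c j (fun _ => x)‖ * t ^ (n + 1))
        fun j hj => ?_).trans (Finset.sum_le_sum_of_subset_of_nonneg (Finset.erase_subset _ _)
          fun j _ _ => by have := ht.1.le; positivity)
      rcases lt_trichotomy (j : ℕ) n with hj' | hj' | hj'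
      · rw [ih j hj' j rfl x]
        simp
      · exact absurd (Fin.ext (hj'.trans hi.symm)) (Finset.ne_of_mem_erase hj)
      · rw [norm_smul, norm_pow, Real.norm_eq_abs, abs_of_pos ht.1, mul_comm]
        exact mul_le_mul_of_nonneg_left (pow_le_pow_of_le_one ht.1.le ht1 hj') (norm_nonneg _)
  funext i
  exact mlin_zero_of_diag _ (hs i) fun x => key i i rfl x

theorem iter_diag {i : ℕ} (f : E [×i]→L[ℝ] W) (n : ℕ) {x : E} (hx : ‖x‖ ≤ 1) :
    ‖iteratedFDeriv ℝ n (fun x : E => f fun _ => x) x‖ ≤ (i.descFactorial n : ℝ) * ‖f‖ := by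
  let P : E →L[ℝ] (Fin i → E) := ContinuousLinearMap.pi fun _ => ContinuousLinearMap.id ℝ E
  have hP : ‖P‖ ≤ 1 := by
    refine ContinuousLinearMap.opNorm_le_bound _ zero_le_one fun y => ?_
    rw [one_mul]
    exact pi_norm_const_le y
  have h1 : (fun x : E => f fun _ => x) = f ∘ P := rfl
  have hf : ContDiff ℝ n f := f.contDiff
  rw [h1, P.iteratedFDeriv_comp_right hf x le_rfl]
  refine (ContinuousMultilinearMap.norm_compContinuousLinearMap_le _ _).trans ?_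
  have h2 : ∏ _j : Fin n, ‖P‖ ≤ 1 := Finset.prod_le_one (fun _ _ => norm_nonneg _) fun _ _ => hP
  have h3 := f.norm_iteratedFDeriv_le n (P x)
  have h4 : ‖P x‖ ≤ 1 := by
    have := P.le_opNorm x
    calc ‖P x‖ ≤ ‖P‖ * ‖x‖ := this
      _ ≤ 1 * 1 := by gcongr
      _ = 1 := one_mul 1
  rw [Fintype.card_fin] at h3
  calc ‖iteratedFDeriv ℝ n f (P x)‖ * ∏ _j : Fin n, ‖P‖
      ≤ ‖iteratedFDeriv ℝ n f (P x)‖ * 1 := by gcongr
    _ = ‖iteratedFDeriv ℝ n f (P x)‖ := mul_one _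
    _ ≤ (i.descFactorial n : ℝ) * ‖f‖ * ‖P x‖ ^ (i - n) := h3
    _ ≤ (i.descFactorial n : ℝ) * ‖f‖ * 1 := by
        gcongr
        exact pow_le_one₀ (norm_nonneg _) h4
    _ = _ := mul_one _

theorem contDiff_diag {i : ℕ} (f : E [×i]→L[ℝ] W) {n : ℕ∞ω} :
    ContDiff ℝ n (fun x : E => f fun _ => x) :=
  f.contDiff.comp (contDiff_pi.2 fun _ => contDiff_id)

theorem contDiff_ev {k : ℕ} (c : Cf E W k) {n : ℕ∞ω} : ContDiff ℝ n (ev c) := by
  unfold ev
  exact ContDiff.sum fun i _ => contDiff_diag (c i)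

/-- the constant of the derivative bounds -/
def dC (k n : ℕ) : ℝ := ∑ i : Fin k, ((i : ℕ).descFactorial n : ℝ)

theorem dC_nonneg (k n : ℕ) : 0 ≤ dC k n := Finset.sum_nonneg fun _ _ => Nat.cast_nonneg _

theorem dC_zero {k n : ℕ} (h : k ≤ n) : dC k n = 0 := by
  unfold dC
  refine Finset.sum_eq_zero fun i _ => ?_
  rw [Nat.descFactorial_eq_zero_iff_lt.2 (i.2.trans_le h), Nat.cast_zero]

theorem iter_ev {k : ℕ} (c : Cf E W k) (n : ℕ) {x : E} (hx : ‖x‖ ≤ 1) :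
    ‖iteratedFDeriv ℝ n (ev c) x‖ ≤ dC k n * ‖c‖ := by
  have h1 : ev c = ∑ i ∈ Finset.univ, fun x : E => c i fun _ => x := by
    funext x
    rw [Finset.sum_apply]
    rfl
  rw [h1, iteratedFDeriv_sum_apply (fun i _ => (contDiff_diag (c i)).contDiffAt)]
  refine (norm_sum_le _ _).trans ?_
  unfold dC
  rw [Finset.sum_mul]
  refine Finset.sum_le_sum fun i _ => (iter_diag (c i) n hx).trans ?_
  gcongr
  exact norm_le_pi_norm c i

/-- Taylor coefficients -/
def tc (k : ℕ) (g : E → W) : Cf E W k := fun i => ((i : ℕ)! : ℝ)⁻¹ • iteratedFDeriv ℝ i g 0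

theorem ev_tc (k : ℕ) (g : E → W) (x : E) : ev (tc k g) x = tay g k x := by
  unfold ev tc tay
  rw [Finset.sum_range]
  rfl

theorem sy_tc (k : ℕ) {g : E → W} {ρ : ℝ} (hρ : 0 < ρ) (hg : ContDiffOn ℝ ∞ g (ball 0 ρ)) :
    Sy (tc k g) := by
  intro i σ v
  show ((i : ℕ)! : ℝ)⁻¹ • iteratedFDeriv ℝ i g 0 (v ∘ σ) = ((i : ℕ)! : ℝ)⁻¹ • iteratedFDeriv ℝ i g 0 v
  rw [symm_perm isOpen_ball hg i (mem_ball_self hρ) σ v]

theorem ev_zero {k : ℕ} (c : Cf E W (k + 1)) : ev c 0 = c 0 (fun _ => (0 : E)) := by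
  unfold ev
  rw [Fin.sum_univ_succ]
  rw [Finset.sum_eq_zero, add_zero]
  intro i _
  exact (c i.succ).map_coord_zero (⟨0, by simp⟩ : Fin (i.succ : ℕ)) rfl

theorem norm_ev_zero_le {k : ℕ} (c : Cf E W k) : ‖ev c 0‖ ≤ ‖c‖ := by
  cases k with
  | zero => simp [ev]
  | succ k =>
    rw [ev_zero]
    have h1 := (c 0).le_opNorm (fun _ => (0 : E))
    have h2 : ∏ _j : Fin ((0 : Fin (k + 1)) : ℕ), ‖(0 : E)‖ = 1 := by
      haveI : IsEmpty (Fin ((0 : Fin (k + 1)) : ℕ)) := ⟨fun j => absurd j.2 (by simp)⟩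
      exact Finset.prod_of_isEmpty _
    calc ‖c 0 (fun _ => (0 : E))‖ ≤ ‖c 0‖ * ∏ _j : Fin ((0 : Fin (k + 1)) : ℕ), ‖(0 : E)‖ := h1
      _ = ‖c 0‖ := by rw [h2, mul_one]
      _ ≤ ‖c‖ := norm_le_pi_norm c 0

theorem norm_ev_le {k : ℕ} (c : Cf E W k) {x : E} (hx : ‖x‖ ≤ 1) : ‖ev c x‖ ≤ k * ‖c‖ := by
  unfold ev
  refine (norm_sum_le _ _).trans ?_
  have : ∀ i ∈ (Finset.univ : Finset (Fin k)), ‖c i fun _ => x‖ ≤ ‖c‖ := by
    intro i _
    have h1 := (c i).le_opNorm (fun _ => x)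
    have h2 : ∏ _j : Fin (i : ℕ), ‖x‖ ≤ 1 :=
      Finset.prod_le_one (fun _ _ => norm_nonneg _) fun _ _ => hx
    calc _ ≤ ‖c i‖ * ∏ _j : Fin (i : ℕ), ‖x‖ := h1
      _ ≤ ‖c‖ * 1 := by
          gcongr
          exact norm_le_pi_norm c i
      _ = ‖c‖ := mul_one _
  refine (Finset.sum_le_sum this).trans ?_
  simp

/-- the evaluation is continuous in the coefficients -/
theorem tendsto_ev {k : ℕ} {c : ℕ → Cf E W k} {c' : Cf E W k} (h : Tendsto c atTop (𝓝 c')) (x : E) :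
    Tendsto (fun n => ev (c n) x) atTop (𝓝 (ev c' x)) := by
  unfold ev
  refine tendsto_finsetSum _ fun i _ => ?_
  have h2 := tendsto_pi_nhds.1 h i
  have h3 : Continuous fun f : E [×(i : ℕ)]→L[ℝ] W => f fun _ => x := continuous_eval_const _
  exact (h3.tendsto _).comp h2

theorem Sy.limit {k : ℕ} {c : ℕ → Cf E W k} {c' : Cf E W k} (h : Tendsto c atTop (𝓝 c'))
    (hs : ∀ n, Sy (c n)) : Sy c' := by
  intro i σ v
  have h2 := tendsto_pi_nhds.1 h i
  have h3 : ∀ w : Fin i → E, Continuous fun f : E [×(i : ℕ)]→L[ℝ] W => f w :=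
    fun w => continuous_eval_const _
  have a := (h3 (v ∘ σ)).tendsto _ |>.comp h2
  have b := (h3 v).tendsto _ |>.comp h2
  refine tendsto_nhds_unique a (b.congr fun n => ?_)
  exact (hs n i σ v).symm

theorem Sy.smul {k : ℕ} {c : Cf E W k} (h : Sy c) (a : ℝ) : Sy (a • c) := by
  intro i σ v
  show a • c i (v ∘ σ) = a • c i v
  rw [h i σ v]

theorem ev_smul {k : ℕ} (a : ℝ) (c : Cf E W k) (x : E) : ev (a • c) x = a • ev c x := by
  unfold ev
  rw [Finset.smul_sum]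
  rfl

end Vale.Agent.P207.H387
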