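import Mathlib

/-!
# P207, line N4, LEMMA Q (Taylor version), part 3: complements of subspaces, uniformly

`prj S : W →L W` has kernel `S`, its norm is bounded by a constant `cW`.
-/

set_option linter.all false

open Metric Set Filter Topology
open scoped ContDiff

noncomputable section

namespace Vale.Agent.P207.H387

variable {W : Type} [NormedAddCommGroup W] [NormedSpace ℝ W] [FiniteDimensional ℝ W]

/-- projection along `S` -/
def prj (S : Submodule ℝ W) : W →L[ℝ] W :=
  ContinuousLinearMap.id ℝ W - (toEuclidean (E := W)).symm.toContinuousLinearMap ∘L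
    (S.map ((toEuclidean (E := W)).toLinearEquiv : W →ₗ[ℝ] _)).starProjection ∘L
      (toEuclidean (E := W)).toContinuousLinearMap

variable (W) in
/-- the bound of the projections -/
def cW : ℝ := 1 + ‖((toEuclidean (E := W)).symm.toContinuousLinearMap :
    EuclideanSpace ℝ (Fin (Module.finrank ℝ W)) →L[ℝ] W)‖ *
      ‖((toEuclidean (E := W)).toContinuousLinearMap :
        W →L[ℝ] EuclideanSpace ℝ (Fin (Module.finrank ℝ W)))‖

variable (W) in
theorem one_le_cW : 1 ≤ cW W := by
  unfold cW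
  have : 0 ≤ ‖((toEuclidean (E := W)).symm.toContinuousLinearMap :
    EuclideanSpace ℝ (Fin (Module.finrank ℝ W)) →L[ℝ] W)‖ *
      ‖((toEuclidean (E := W)).toContinuousLinearMap :
        W →L[ℝ] EuclideanSpace ℝ (Fin (Module.finrank ℝ W)))‖ := by positivity
  linarith

theorem prj_apply (S : Submodule ℝ W) (x : W) : prj S x = x - (toEuclidean (E := W)).symm
    ((S.map ((toEuclidean (E := W)).toLinearEquiv : W →ₗ[ℝ] _)).starProjection
      (toEuclidean x)) := rfl

theorem norm_prj_le (S : Submodule ℝ W) : ‖prj S‖ ≤ cW W := by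
  unfold prj cW
  refine (norm_sub_le _ _).trans (add_le_add ContinuousLinearMap.norm_id_le ?_)
  refine (ContinuousLinearMap.opNorm_comp_le _ _).trans ?_
  gcongr
  refine (ContinuousLinearMap.opNorm_comp_le _ _).trans ?_
  refine (mul_le_mul_of_nonneg_right (Submodule.starProjection_norm_le _) (norm_nonneg _)).trans ?_
  rw [one_mul]

theorem prj_mem (S : Submodule ℝ W) {x : W} (hx : x ∈ S) : prj S x = 0 := by
  rw [prj_apply, sub_eq_zero]
  have h1 : (toEuclidean x) ∈ S.map ((toEuclidean (E := W)).toLinearEquiv : W →ₗ[ℝ] _) :=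
    Submodule.mem_map_of_mem hx
  rw [Submodule.starProjection_eq_self_iff.2 h1]
  simp

theorem sub_prj_mem (S : Submodule ℝ W) (x : W) : x - prj S x ∈ S := by
  rw [prj_apply, sub_sub_cancel]
  have h1 := Submodule.starProjection_apply_mem
    (S.map ((toEuclidean (E := W)).toLinearEquiv : W →ₗ[ℝ] _)) (toEuclidean x)
  obtain ⟨y, hy, hy'⟩ := (Submodule.mem_map).1 h1
  rw [← hy']
  simpa using hy

theorem prj_eq_zero (S : Submodule ℝ W) {x : W} (hx : prj S x = 0) : x ∈ S := by
  have := sub_prj_mem S x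
  rwa [hx, sub_zero] at this

theorem prj_prj (S : Submodule ℝ W) (x : W) : prj S (prj S x) = prj S x := by
  have h1 : prj S (x - prj S x) = 0 := prj_mem S (sub_prj_mem S x)
  rw [map_sub, sub_eq_zero] at h1
  exact h1.symm

theorem norm_le_cW (S : Submodule ℝ W) (x : W) {s : W} (hs : s ∈ S) :
    ‖prj S x‖ ≤ cW W * ‖x - s‖ := by
  have h1 : prj S x = prj S (x - s) := by rw [map_sub, prj_mem S hs, sub_zero]
  rw [h1]
  refine ((prj S).le_opNorm _).trans ?_
  gcongr
  exact norm_prj_le S

/-- limits of complements meet the limit space in zero only -/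
theorem perp_limit {S : ℕ → Submodule ℝ W} {S' : Submodule ℝ W}
    (hd : ∀ n, Module.finrank ℝ (S n) = Module.finrank ℝ S')
    (hcl : ∀ ψ : ℕ → ℕ, StrictMono ψ → ∀ (s : ℕ → W) (t : W), (∀ n, s n ∈ S (ψ n)) →
      Tendsto s atTop (𝓝 t) → t ∈ S') {w : ℕ → W} {w' : W} (hw : ∀ n, prj (S n) (w n) = w n)
    (hl : Tendsto w atTop (𝓝 w')) (hm : w' ∈ S') : w' = 0 := by
  haveI : ProperSpace (W →L[ℝ] W) := FiniteDimensional.proper ℝ _
  have hb : ∀ n, prj (S n) ∈ closedBall (0 : W →L[ℝ] W) (cW W) := fun n => by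
    rw [mem_closedBall_zero_iff]
    exact norm_prj_le _
  obtain ⟨P, -, ψ, hψ, hP⟩ := (isCompact_closedBall (0 : W →L[ℝ] W) (cW W)).tendsto_subseq hb
  have hP' : ∀ x, Tendsto (fun n => prj (S (ψ n)) x) atTop (𝓝 (P x)) := fun x =>
    ((ContinuousLinearMap.apply ℝ W x).continuous.tendsto P).comp hP
  set Q : W →ₗ[ℝ] W := LinearMap.id - (P : W →ₗ[ℝ] W) with hQ
  have hQmem : ∀ x, Q x ∈ S' := by
    intro x
    refine hcl ψ hψ (fun n => x - prj (S (ψ n)) x) _ (fun n => sub_prj_mem _ _) ?_
    exact tendsto_const_nhds.sub (hP' x)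
  have hPP : ∀ x, P (P x) = P x := by
    intro x
    have h1 : Tendsto (fun n => prj (S (ψ n)) (prj (S (ψ n)) x)) atTop (𝓝 (P (P x))) := by
      have hc : Continuous fun p : (W →L[ℝ] W) × W => p.1 p.2 := by fun_prop
      exact (hc.tendsto (P, P x)).comp (hP.prodMk_nhds (hP' x))
    refine tendsto_nhds_unique h1 ((hP' x).congr fun n => (prj_prj _ _).symm)
  have hproj : LinearMap.IsProj (LinearMap.range Q) Q := by
    refine (LinearMap.isProj_range_iff_isIdempotentElem Q).2 ?_
    ext x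
    show Q (Q x) = Q x
    simp only [hQ, LinearMap.sub_apply, LinearMap.id_apply, ContinuousLinearMap.coe_coe, map_sub,
      hPP]
    abel
  have htr : ∀ n, LinearMap.trace ℝ W (LinearMap.id - (prj (S (ψ n)) : W →ₗ[ℝ] W)) =
      (Module.finrank ℝ S' : ℝ) := by
    intro n
    rw [← hd (ψ n)]
    refine LinearMap.IsProj.trace (p := S (ψ n)) ⟨fun x => sub_prj_mem _ x, fun x hx => ?_⟩
    show x - prj (S (ψ n)) x = x
    rw [prj_mem _ hx, sub_zero]
  have htr' : LinearMap.trace ℝ W Q = (Module.finrank ℝ (LinearMap.range Q) : ℝ) := hproj.trace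
  have hcont : Continuous fun F : W →L[ℝ] W => LinearMap.trace ℝ W (LinearMap.id - (F : W →ₗ[ℝ] W)) := by
    let T : (W →L[ℝ] W) →ₗ[ℝ] ℝ := (LinearMap.trace ℝ W) ∘ₗ (ContinuousLinearMap.coeLM ℝ)
    have hT : Continuous T := LinearMap.continuous_of_finiteDimensional T
    have : (fun F : W →L[ℝ] W => LinearMap.trace ℝ W (LinearMap.id - (F : W →ₗ[ℝ] W))) =
        fun F => LinearMap.trace ℝ W LinearMap.id - T F := by
      funext F
      rw [map_sub]
      rfl
    rw [this]
    exact continuous_const.sub hT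
  have h2 : Tendsto (fun n => LinearMap.trace ℝ W (LinearMap.id - (prj (S (ψ n)) : W →ₗ[ℝ] W)))
      atTop (𝓝 (LinearMap.trace ℝ W Q)) := (hcont.tendsto P).comp hP
  have h3 : LinearMap.trace ℝ W Q = (Module.finrank ℝ S' : ℝ) :=
    tendsto_nhds_unique h2 (tendsto_const_nhds.congr fun n => (htr n).symm)
  have h4 : Module.finrank ℝ (LinearMap.range Q) = Module.finrank ℝ S' := by
    rw [htr'] at h3
    exact_mod_cast h3
  have hle : LinearMap.range Q ≤ S' := by
    rintro _ ⟨x, rfl⟩
    exact hQmem x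
  have heq : LinearMap.range Q = S' := Submodule.eq_of_le_of_finrank_eq hle h4
  have h5 : Q w' = w' := hproj.map_id w' (heq ▸ hm)
  have h6 : P w' = w' := by
    have hc : Continuous fun p : (W →L[ℝ] W) × W => p.1 p.2 := by fun_prop
    have h7 : Tendsto (fun n => prj (S (ψ n)) (w (ψ n))) atTop (𝓝 (P w')) :=
      (hc.tendsto (P, w')).comp (hP.prodMk_nhds (hl.comp hψ.tendsto_atTop))
    exact tendsto_nhds_unique h7 ((hl.comp hψ.tendsto_atTop).congr fun n => (hw (ψ n)).symm)
  have h8 : Q w' = w' - P w' := rfl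
  rw [h8, h6, sub_self] at h5
  exact h5.symm

end Vale.Agent.P207.H387
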