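import Vale.Agent.P207.N4.H147.AxD

/-!
# P207, THEOREM Q'': frames with dense forward and dense backward orbit

`exists_dense_frame`: there is a frame whose forward orbit and whose backward orbit are dense
modulo the group and the rotations (Baire category and `dense_leaf`).
-/

set_option linter.all false

open Set Filter Topology Metric

noncomputable section

namespace Vale.Agent.P207.N4.H387

open Vale.Agent.P207.N3
open Vale.Agent.P207.N4.H147

variable [Dim]

variable {Γ X B : Type} [Group Γ] [MetricSpace X] [ProperSpace X] [MulAction Γ X]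
  [IsIsometricSMul Γ X] [TopologicalSpace B] [CompactSpace B] [T2Space B] [MulAction Γ B]
  [ContinuousConstSMul Γ B] (L : Leaf Γ X B)

/-- the frames whose forward orbit, modulo the group and the rotations, meets `W` after the
time `T` -/
def Fw (W : Set X) (T : ℝ) : Set X :=
  {x | ∃ t, T ≤ t ∧ ∃ (a : O2) (g : Γ), g • L.rot a (L.φ t x) ∈ W}

/-- the same in the past -/
def Bw (W : Set X) (T : ℝ) : Set X :=
  {x | ∃ t, T ≤ t ∧ ∃ (a : O2) (g : Γ), g • L.rot a (L.φ (-t) x) ∈ W}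

theorem Fw_open {W : Set X} (hW : IsOpen W) (T : ℝ) : IsOpen (Fw L W T) := by
  have h : Fw L W T = ⋃ (t : ℝ) (_ : T ≤ t) (a : O2) (g : Γ),
      (fun x => g • L.rot a (L.φ t x)) ⁻¹' W := by
    ext x
    simp only [Fw, mem_setOf_eq, mem_iUnion, mem_preimage]
    constructor
    · rintro ⟨t, ht, a, g, h⟩
      exact ⟨t, ht, a, g, h⟩
    · rintro ⟨t, ht, a, g, h⟩
      exact ⟨t, ht, a, g, h⟩
  rw [h]
  refine isOpen_iUnion fun t => isOpen_iUnion fun _ => isOpen_iUnion fun a =>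
    isOpen_iUnion fun g => hW.preimage ?_
  have h1 : Continuous (L.φ t) := L.φ_cont.comp (continuous_const.prodMk continuous_id)
  exact (continuous_const_smul g).comp ((L.rot_cont a).comp h1)

theorem Fw_dense {W : Set X} (hW : IsOpen W) (hne : W.Nonempty) (T : ℝ) : Dense (Fw L W T) := by
  rw [dense_iff_inter_open]
  rintro O hO ⟨x, hx⟩
  set O1 : Set X := O ∩ {y | L.lv y < L.lv x + 1} with hO1
  have hO1o : IsOpen O1 := hO.inter (isOpen_lt L.lv_cont continuous_const)
  have hx1 : x ∈ O1 := ⟨hx, by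
    show L.lv x < L.lv x + 1
    linarith⟩
  set W' : Set X := {y | ∃ (t : ℝ) (a : O2), L.rot a (L.φ t y) ∈ O1} with hW'd
  have hW' : W' ∈ 𝓝 x := mem_of_superset (hO1o.mem_nhds hx1) fun y hy => ⟨0, 1, by
    rw [L.φ_zero, L.rot_one]
    exact hy⟩
  have hφ : ∀ y ∈ W', ∀ t, L.φ t y ∈ W' := by
    rintro y ⟨s, a, h⟩ t
    refine ⟨s - t, a, ?_⟩
    rw [← L.φ_add, sub_add_cancel]
    exact h
  have hr : ∀ y ∈ W', ∀ a, L.rot a y ∈ W' := by
    rintro y ⟨s, b, h⟩ a
    refine ⟨s, a⁻¹ * b, ?_⟩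
    rw [← L.rot_φ, ← L.rot_mul, ← mul_assoc, mul_inv_cancel, one_mul]
    exact h
  obtain ⟨OB, hOB, hxOB, hOBW⟩ := nhds_ends L x hW' hφ hr
  have hec : ContinuousOn (fun u => (L.em x, L.e x u)) (ball (0 : E2) 3) := by
    refine continuousOn_const.prodMk ?_
    refine L.e_cont.comp (f := fun u : E2 => (x, u))
      (continuous_const.prodMk continuous_id).continuousOn ?_
    intro u hu
    exact ⟨mem_univ _, ball_subset_closedBall hu⟩
  set V : Set E2 := ball (0 : E2) 3 ∩ (fun u => (L.em x, L.e x u)) ⁻¹' OB with hV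
  have hVo : IsOpen V := hec.isOpen_inter_preimage isOpen_ball hOB
  have hV0 : V.Nonempty := ⟨0, by simp, by
    show (L.em x, L.e x 0) ∈ OB
    rw [L.e_zero]
    exact hxOB⟩
  obtain ⟨g, y, h1, ⟨u, hu, hue⟩, h3, h4⟩ :=
    L.dense_leaf x V hVo inter_subset_left hV0 (T + (L.lv x + 1)) W hW hne
  have hy : y ∈ W' := hOBW y (by
    rw [h1, ← hue]
    exact hu.2)
  obtain ⟨t, a, hta⟩ := hy
  refine ⟨L.rot a (L.φ t y), hta.1, -t, ?_, a⁻¹, g, ?_⟩
  · have h5 : L.lv (L.rot a (L.φ t y)) < L.lv x + 1 := hta.2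
    rw [L.lv_rot, L.lv_φ] at h5
    linarith
  · rw [← L.rot_φ, ← L.rot_mul, mul_inv_cancel, L.rot_one, ← L.φ_add, neg_add_cancel, L.φ_zero]
    exact h4

/-- the flip as a homeomorphism -/
def flipH : X ≃ₜ X where
  toFun := L.flip
  invFun := L.flip
  left_inv := L.flip_flip
  right_inv := L.flip_flip
  continuous_toFun := L.flip_cont
  continuous_invFun := L.flip_cont

theorem Bw_eq (W : Set X) (T : ℝ) : Bw L W T = flipH L ⁻¹' Fw L (flipH L ⁻¹' W) T := by
  have key : ∀ (x : X) (t : ℝ) (a : O2) (g : Γ),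
      L.flip (g • L.rot a (L.φ t (L.flip x))) = g • L.rot a (L.φ (-t) x) := by
    intro x t a g
    rw [L.flip_smul, L.flip_rot, L.flip_φ, L.flip_flip]
  ext x
  constructor
  · rintro ⟨t, ht, a, g, h⟩
    refine ⟨t, ht, a, g, ?_⟩
    show L.flip (g • L.rot a (L.φ t (L.flip x))) ∈ W
    rw [key]
    exact h
  · rintro ⟨t, ht, a, g, h⟩
    refine ⟨t, ht, a, g, ?_⟩
    have h' : L.flip (g • L.rot a (L.φ t (L.flip x))) ∈ W := h
    rw [key] at h'
    exact h'

theorem Bw_open {W : Set X} (hW : IsOpen W) (T : ℝ) : IsOpen (Bw L W T) := by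
  rw [Bw_eq]
  exact (Fw_open L (hW.preimage (flipH L).continuous) T).preimage (flipH L).continuous

theorem Bw_dense {W : Set X} (hW : IsOpen W) (hne : W.Nonempty) (T : ℝ) : Dense (Bw L W T) := by
  rw [Bw_eq]
  refine (Fw_dense L (hW.preimage (flipH L).continuous) ?_ T).preimage (flipH L).isOpenMap
  obtain ⟨w, hw⟩ := hne
  exact ⟨L.flip w, by
    show L.flip (L.flip w) ∈ W
    rw [L.flip_flip]
    exact hw⟩

/-- the forward and the backward orbit of `x`, modulo the group and the rotations, are dense -/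
structure DenseF (x : X) : Prop where
  fwd : ∀ W : Set X, IsOpen W → W.Nonempty → ∀ T : ℝ, ∃ t, T ≤ t ∧ ∃ (a : O2) (g : Γ),
    g • L.rot a (L.φ t x) ∈ W
  bwd : ∀ W : Set X, IsOpen W → W.Nonempty → ∀ T : ℝ, ∃ t, T ≤ t ∧ ∃ (a : O2) (g : Γ),
    g • L.rot a (L.φ (-t) x) ∈ W

/-- **the frames with dense forward and backward orbit are dense** -/
theorem dense_denseF : Dense {x : X | DenseF L x} := by
  haveI : SecondCountableTopology X := secondCountable_of_proper
  let ι : Type := TopologicalSpace.countableBasis X × ℕ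
  haveI : Countable (TopologicalSpace.countableBasis X) :=
    (TopologicalSpace.countable_countableBasis X).to_subtype
  have hopen : ∀ i : TopologicalSpace.countableBasis X, IsOpen (i : Set X) := fun i =>
    TopologicalSpace.isOpen_of_mem_countableBasis i.2
  have hnon : ∀ i : TopologicalSpace.countableBasis X, (i : Set X).Nonempty := fun i =>
    TopologicalSpace.nonempty_of_mem_countableBasis i.2
  have h1 : Dense (⋂ i : ι, (Fw L (i.1 : Set X) i.2 ∩ Bw L (i.1 : Set X) i.2)) := by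
    refine dense_iInter_of_isOpen (fun i => (Fw_open L (hopen i.1) _).inter
      (Bw_open L (hopen i.1) _)) fun i => ?_
    exact (Fw_dense L (hopen i.1) (hnon i.1) _).inter_of_isOpen_right
      (Bw_dense L (hopen i.1) (hnon i.1) _) (Bw_open L (hopen i.1) _)
  refine h1.mono fun x hx => ?_
  rw [mem_iInter] at hx
  have key : ∀ W : Set X, IsOpen W → W.Nonempty → ∀ T : ℝ,
      ∃ i : ι, (i.1 : Set X) ⊆ W ∧ T ≤ (i.2 : ℝ) := by
    rintro W hW ⟨w, hw⟩ T
    obtain ⟨v, hv, -, hvW⟩ :=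
      (TopologicalSpace.isBasis_countableBasis X).exists_subset_of_mem_open hw hW
    obtain ⟨N, hN⟩ := exists_nat_ge T
    exact ⟨(⟨v, hv⟩, N), hvW, hN⟩
  constructor
  · intro W hW hne T
    obtain ⟨i, h2, h3⟩ := key W hW hne T
    obtain ⟨t, ht, a, g, h⟩ := (hx i).1
    exact ⟨t, h3.trans ht, a, g, h2 h⟩
  · intro W hW hne T
    obtain ⟨i, h2, h3⟩ := key W hW hne T
    obtain ⟨t, ht, a, g, h⟩ := (hx i).2
    exact ⟨t, h3.trans ht, a, g, h2 h⟩

/-- **a frame with dense forward and dense backward orbit exists** -/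
theorem exists_dense_frame : ∃ x₀ : X, DenseF L x₀ := by
  haveI : Nonempty X := L.nonempty
  exact (dense_denseF L).nonempty

variable {L}

/-- sequences -/
theorem DenseF.seq_fwd {x₀ : X} (h : DenseF L x₀) (x : X) :
    ∃ (t : ℕ → ℝ) (a : ℕ → O2) (g : ℕ → Γ), Tendsto t atTop atTop ∧
      Tendsto (fun n => g n • L.rot (a n) (L.φ (t n) x₀)) atTop (𝓝 x) := by
  choose t ht a g hg using fun n : ℕ => h.fwd (ball x (1 / ((n : ℝ) + 1))) isOpen_ball
    ⟨x, mem_ball_self (by positivity)⟩ n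
  refine ⟨t, a, g, tendsto_atTop_mono ht tendsto_natCast_atTop_atTop, ?_⟩
  rw [tendsto_iff_dist_tendsto_zero]
  exact squeeze_zero (fun n => dist_nonneg) (fun n => (mem_ball.1 (hg n)).le)
    tendsto_one_div_add_atTop_nhds_zero_nat

theorem DenseF.seq_bwd {x₀ : X} (h : DenseF L x₀) (x : X) :
    ∃ (t : ℕ → ℝ) (a : ℕ → O2) (g : ℕ → Γ), Tendsto t atTop atTop ∧
      Tendsto (fun n => g n • L.rot (a n) (L.φ (-t n) x₀)) atTop (𝓝 x) := by
  choose t ht a g hg using fun n : ℕ => h.bwd (ball x (1 / ((n : ℝ) + 1))) isOpen_ball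
    ⟨x, mem_ball_self (by positivity)⟩ n
  refine ⟨t, a, g, tendsto_atTop_mono ht tendsto_natCast_atTop_atTop, ?_⟩
  rw [tendsto_iff_dist_tendsto_zero]
  exact squeeze_zero (fun n => dist_nonneg) (fun n => (mem_ball.1 (hg n)).le)
    tendsto_one_div_add_atTop_nhds_zero_nat

end Vale.Agent.P207.N4.H387
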