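import Vale.Agent.P207.H387.X0

/-!
# P207, THEOREM Q'': returns at multiples of a fixed step

A frame with dense forward orbit (modulo the group and the rotations) returns to itself at times
which are multiples of any given step `T₀`: the set of the return times modulo `T₀` is a closed
subsemigroup of the circle.
-/

set_option linter.all false

open Set Filter Topology Metric

noncomputable section

namespace Vale.Agent.P207.N4.H387

open Vale.Agent.P207.N3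
open Vale.Agent.P207.N4.H147

variable [Dim]

variable {Γ X B : Type} [Group Γ] [MetricSpace X] [ProperSpace X] [MulAction Γ X]
  [IsIsometricSMul Γ X] [TopologicalSpace B] [CompactSpace B] [T2Space B] [MulAction Γ B]
  [ContinuousConstSMul Γ B] {L : Leaf Γ X B}

/-- `s` is a limit of return times modulo the step `T₀` -/
def Ret (L : Leaf Γ X B) (x₀ : X) (T₀ s : ℝ) : Prop :=
  ∀ ε > 0, ∀ T : ℝ, ∃ (t : ℝ) (m : ℤ), T ≤ t ∧ |t - s - m * T₀| < ε ∧ ∃ (a : O2) (g : Γ),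
    dist (g • L.rot a (L.φ t x₀)) x₀ < ε

theorem φ_cont1 (L : Leaf Γ X B) (t : ℝ) : Continuous (L.φ t) :=
  L.φ_cont.comp (continuous_const.prodMk continuous_id)

theorem act_cont (L : Leaf Γ X B) (t : ℝ) (a : O2) (g : Γ) :
    Continuous fun x => g • L.rot a (L.φ t x) :=
  (continuous_const_smul g).comp ((L.rot_cont a).comp (φ_cont1 L t))

theorem act_act (L : Leaf Γ X B) (t t' : ℝ) (a a' : O2) (g g' : Γ) (x : X) :
    g • L.rot a (L.φ t (g' • L.rot a' (L.φ t' x))) = (g * g') • L.rot (a' * a) (L.φ (t + t') x) := by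
  rw [L.φ_smul, L.rot_smul, ← mul_smul, ← L.rot_φ, ← L.rot_mul, ← L.φ_add]

/-- some limit of return times exists -/
theorem DenseF.exists_ret {x₀ : X} (h : DenseF L x₀) {T₀ : ℝ} (hT : 0 < T₀) :
    ∃ s, Ret L x₀ T₀ s := by
  obtain ⟨t, a, g, ht, hlim⟩ := h.seq_fwd x₀
  have hfl : ∀ n, t n - ⌊t n / T₀⌋ * T₀ ∈ Icc (0 : ℝ) T₀ := by
    intro n
    have h1 := Int.floor_le (t n / T₀)
    have h2 := (Int.lt_floor_add_one (t n / T₀)).le
    rw [le_div_iff₀ hT] at h1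
    rw [div_le_iff₀ hT] at h2
    constructor
    · linarith
    · linarith
  obtain ⟨s, -, ψ, hψ, hs⟩ := isCompact_Icc.tendsto_subseq hfl
  refine ⟨s, fun ε hε T => ?_⟩
  have e1 : ∀ᶠ n in atTop, T ≤ t (ψ n) := (ht.comp hψ.tendsto_atTop).eventually_ge_atTop T
  have e2 : ∀ᶠ n in atTop, dist (t (ψ n) - ⌊t (ψ n) / T₀⌋ * T₀) s < ε := Metric.tendsto_nhds.1 hs ε hε
  have e3 : ∀ᶠ n in atTop, dist (g (ψ n) • L.rot (a (ψ n)) (L.φ (t (ψ n)) x₀)) x₀ < ε :=
    Metric.tendsto_nhds.1 (hlim.comp hψ.tendsto_atTop) ε hε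
  obtain ⟨n, h1, h2, h3⟩ := (e1.and (e2.and e3)).exists
  refine ⟨t (ψ n), ⌊t (ψ n) / T₀⌋, h1, ?_, a (ψ n), g (ψ n), h3⟩
  rw [Real.dist_eq] at h2
  have : t (ψ n) - s - ⌊t (ψ n) / T₀⌋ * T₀ = t (ψ n) - ⌊t (ψ n) / T₀⌋ * T₀ - s := by ring
  rw [this]
  exact h2

/-- the limits of return times form a semigroup -/
theorem Ret.add {x₀ : X} {T₀ s s' : ℝ} (h : Ret L x₀ T₀ s) (h' : Ret L x₀ T₀ s') :
    Ret L x₀ T₀ (s + s') := by
  intro ε hε T
  obtain ⟨t, m, ht, hm, a, g, hd⟩ := h (ε / 2) (by positivity) (max T 0)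
  have hT : T ≤ t := (le_max_left _ _).trans ht
  obtain ⟨δ, hδ, hc⟩ := Metric.continuous_iff.1 (act_cont L t a g) x₀ (ε / 2) (by positivity)
  obtain ⟨t', m', ht', hm', a', g', hd'⟩ := h' (min (ε / 2) δ) (by positivity) 0
  refine ⟨t + t', m + m', by linarith, ?_, a' * a, g * g', ?_⟩
  · have h1 : |t' - s' - m' * T₀| < ε / 2 := hm'.trans_le (min_le_left _ _)
    have h2 : t + t' - (s + s') - ((m + m' : ℤ) : ℝ) * T₀ =
        (t - s - m * T₀) + (t' - s' - m' * T₀) := by push_cast; ring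
    rw [h2]
    exact (abs_add_le _ _).trans_lt (by linarith)
  · have h1 := hc _ (hd'.trans_le (min_le_right _ _))
    rw [act_act] at h1
    exact (dist_triangle _ _ _).trans_lt (by linarith)

theorem Ret.mul {x₀ : X} {T₀ s : ℝ} (h : Ret L x₀ T₀ s) (k : ℕ) (hk : 0 < k) :
    Ret L x₀ T₀ (k * s) := by
  induction k, hk using Nat.le_induction with
  | base => simpa using h
  | succ k _ ih =>
    have h1 := ih.add h
    have h2 : ((k + 1 : ℕ) : ℝ) * s = k * s + s := by push_cast; ring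
    rw [h2]
    exact h1

/-- the limits of return times are closed, and invariant under multiples of the step -/
theorem Ret.zero {x₀ : X} {T₀ s : ℝ} (hT : 0 < T₀) (h : Ret L x₀ T₀ s) : Ret L x₀ T₀ 0 := by
  intro ε hε T
  -- a multiple of `s` which is close to a multiple of `T₀`
  obtain ⟨N, hN⟩ := exists_nat_gt (2 * T₀ / ε)
  obtain ⟨k, hk, -, hk2⟩ := Real.exists_nat_abs_mul_sub_round_le (s / T₀) (Nat.succ_pos N)
  obtain ⟨t, m, ht, hm, a, g, hd⟩ := h.mul k hk (ε / 2) (by positivity) T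
  refine ⟨t, m + round ((k : ℝ) * (s / T₀)), ht, ?_, a, g, hd.trans (by linarith)⟩
  have h1 : |(k : ℝ) * s - round ((k : ℝ) * (s / T₀)) * T₀| ≤ ε / 2 := by
    have h2 : (k : ℝ) * s - round ((k : ℝ) * (s / T₀)) * T₀ =
        ((k : ℝ) * (s / T₀) - round ((k : ℝ) * (s / T₀))) * T₀ := by
      field_simp
    rw [h2, abs_mul, abs_of_pos hT]
    have hN1 : (0 : ℝ) < (N.succ : ℝ) + 1 := by positivity
    have h3 : T₀ / ((N.succ : ℝ) + 1) ≤ ε / 2 := by
      rw [div_le_div_iff₀ hN1 (by norm_num)]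
      have h4 : 2 * T₀ < N * ε := by
        rwa [div_lt_iff₀ hε] at hN
      push_cast
      nlinarith
    calc |(k : ℝ) * (s / T₀) - round ((k : ℝ) * (s / T₀))| * T₀
        ≤ (1 / ((N.succ : ℝ) + 1)) * T₀ := mul_le_mul_of_nonneg_right hk2 hT.le
      _ = T₀ / ((N.succ : ℝ) + 1) := by ring
      _ ≤ ε / 2 := h3
  have h2 : t - 0 - ((m + round ((k : ℝ) * (s / T₀)) : ℤ) : ℝ) * T₀ =
      (t - k * s - m * T₀) + ((k : ℝ) * s - round ((k : ℝ) * (s / T₀)) * T₀) := by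
    push_cast
    ring
  rw [h2]
  exact (abs_add_le _ _).trans_lt (by linarith)

/-- **returns at multiples of the step, forward** -/
theorem DenseF.step_fwd {x₀ : X} (h : DenseF L x₀) {T₀ : ℝ} (hT : 0 < T₀) {ε : ℝ} (hε : 0 < ε)
    (N : ℕ) : ∃ n : ℕ, N ≤ n ∧ ∃ (a : O2) (g : Γ), dist (g • L.rot a (L.φ (n * T₀) x₀)) x₀ < ε := by
  obtain ⟨s, hs⟩ := h.exists_ret hT
  have h0 := hs.zero hT
  -- continuity of the flow at time zero
  have hc : ContinuousAt (fun p : ℝ × X => L.φ p.1 p.2) (0, x₀) := L.φ_cont.continuousAt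
  obtain ⟨δ, hδ, hc⟩ := Metric.continuousAt_iff.1 hc ε hε
  obtain ⟨t, m, ht, hm, a, g, hd⟩ := h0 δ hδ ((N + 1) * T₀ + δ)
  rw [sub_zero] at hm
  have hm1 : ((N : ℝ) + 1) * T₀ < m * T₀ := by
    have := (abs_lt.1 hm).2
    linarith
  have hm2 : (N : ℝ) + 1 < m := lt_of_mul_lt_mul_right hm1 hT.le
  have hm3 : (0 : ℤ) ≤ m := by
    have : (0 : ℝ) < m := lt_trans (by positivity) hm2
    exact_mod_cast this.le
  obtain ⟨n, rfl⟩ := Int.eq_ofNat_of_zero_le hm3
  refine ⟨n, ?_, a, g, ?_⟩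
  · have h3 : (N : ℝ) < n := by
      have : (N : ℝ) + 1 < ((n : ℤ) : ℝ) := hm2
      push_cast at this
      linarith
    exact_mod_cast h3.le
  · have h1 := hc (x := (-(t - n * T₀), g • L.rot a (L.φ t x₀))) (by
      rw [Prod.dist_eq, max_lt_iff]
      refine ⟨?_, hd⟩
      show dist (-(t - n * T₀)) 0 < δ
      rw [Real.dist_eq, sub_zero, abs_neg]
      have : |t - ((n : ℤ) : ℝ) * T₀| < δ := hm
      push_cast at this
      exact this)
    rw [L.φ_zero] at h1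
    have h2 : L.φ (-(t - n * T₀)) (g • L.rot a (L.φ t x₀)) = g • L.rot a (L.φ (n * T₀) x₀) := by
      rw [L.φ_smul, ← L.rot_φ, ← L.φ_add]
      congr 3
      ring
    rw [← h2]
    exact h1

theorem DenseF.flip {x₀ : X} (h : DenseF L x₀) : DenseF L (L.flip x₀) := by
  have key : ∀ (t : ℝ) (a : O2) (g : Γ),
      g • L.rot a (L.φ t (L.flip x₀)) = L.flip (g • L.rot a (L.φ (-t) x₀)) := by
    intro t a g
    rw [L.flip_smul, L.flip_rot, L.flip_φ, neg_neg]
  have hopen : ∀ W : Set X, IsOpen W → IsOpen (L.flip ⁻¹' W) := fun W hW => hW.preimage L.flip_cont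
  have hnon : ∀ W : Set X, W.Nonempty → (L.flip ⁻¹' W).Nonempty := fun W ⟨w, hw⟩ => ⟨L.flip w, by
    show L.flip (L.flip w) ∈ W
    rw [L.flip_flip]
    exact hw⟩
  constructor
  · intro W hW hne T
    obtain ⟨t, ht, a, g, h1⟩ := h.bwd _ (hopen W hW) (hnon W hne) T
    refine ⟨t, ht, a, g, ?_⟩
    rw [key]
    exact h1
  · intro W hW hne T
    obtain ⟨t, ht, a, g, h1⟩ := h.fwd _ (hopen W hW) (hnon W hne) T
    refine ⟨t, ht, a, g, ?_⟩
    rw [key, neg_neg]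
    exact h1

/-- **returns at multiples of the step, backward** -/
theorem DenseF.step_bwd {x₀ : X} (h : DenseF L x₀) {T₀ : ℝ} (hT : 0 < T₀) {ε : ℝ} (hε : 0 < ε)
    (N : ℕ) :
    ∃ n : ℕ, N ≤ n ∧ ∃ (a : O2) (g : Γ), dist (g • L.rot a (L.φ (-(n * T₀)) x₀)) x₀ < ε := by
  obtain ⟨δ, hδ, hc⟩ := Metric.continuous_iff.1 L.flip_cont (L.flip x₀) ε hε
  obtain ⟨n, hn, a, g, hd⟩ := h.flip.step_fwd hT hδ N
  refine ⟨n, hn, a, g, ?_⟩
  have h1 := hc _ hd
  rw [L.flip_smul, L.flip_rot, L.flip_φ, L.flip_flip] at h1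
  exact h1

/-- sequences of returns -/
theorem DenseF.ret_fwd {x₀ : X} (h : DenseF L x₀) {T₀ : ℝ} (hT : 0 < T₀) :
    ∃ (n : ℕ → ℕ) (a : ℕ → O2) (g : ℕ → Γ), StrictMono n ∧
      Tendsto (fun i => g i • L.rot (a i) (L.φ (n i * T₀) x₀)) atTop (𝓝 x₀) := by
  choose n hn a g hd using fun (i N : ℕ) =>
    h.step_fwd hT (ε := 1 / ((i : ℝ) + 1)) (by positivity) N
  let N : ℕ → ℕ := fun i => Nat.rec (n 0 0) (fun i k => n (i + 1) (k + 1)) i
  let M : ℕ → ℕ := fun i => Nat.casesOn i 0 (fun i => N i + 1)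
  have hNM : ∀ i, N i = n i (M i) := fun i => by cases i <;> rfl
  refine ⟨N, fun i => a i (M i), fun i => g i (M i), strictMono_nat_of_lt_succ fun i => ?_, ?_⟩
  · have := hn (i + 1) (N i + 1)
    exact Nat.lt_of_succ_le this
  · rw [tendsto_iff_dist_tendsto_zero]
    refine squeeze_zero (fun i => dist_nonneg) (fun i => ?_) tendsto_one_div_add_atTop_nhds_zero_nat
    have h1 := (hd i (M i)).le
    rw [← hNM] at h1
    exact h1

theorem DenseF.ret_bwd {x₀ : X} (h : DenseF L x₀) {T₀ : ℝ} (hT : 0 < T₀) :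
    ∃ (n : ℕ → ℕ) (a : ℕ → O2) (g : ℕ → Γ), StrictMono n ∧
      Tendsto (fun i => g i • L.rot (a i) (L.φ (-(n i * T₀)) x₀)) atTop (𝓝 x₀) := by
  obtain ⟨n, a, g, hn, hlim⟩ := h.flip.ret_fwd hT
  refine ⟨n, a, g, hn, ?_⟩
  have h1 := (L.flip_cont.tendsto _).comp hlim
  rw [L.flip_flip] at h1
  refine h1.congr fun i => ?_
  show L.flip (g i • L.rot (a i) (L.φ (n i * T₀) (L.flip x₀))) = _
  rw [L.flip_smul, L.flip_rot, L.flip_φ, L.flip_flip]

end Vale.Agent.P207.N4.H387
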