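import Vale.Agent.P207.H387.X1
import Vale.Agent.P207.N4.H751.ZQ3

/-!
# P207, THEOREM Q'': a frame with dense forward orbit, in the words of the zoom data
-/

set_option linter.all false

open Set Filter Topology Metric
open scoped ContDiff

noncomputable section

namespace Vale.Agent.P207.N4.H387

open Vale.Agent.P207.N3 Vale.Agent.P207.N3.Ten Vale.Agent.P207.N4.Ten Vale.Agent.P207.H751
open Vale.Agent.P207.H686
open Vale.Agent.P207.N4.H147
open Vale.Agent.P207.N4.H751 (AffIn RateQ zdk)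

variable [Dim]

variable {Γ X B : Type} [Group Γ] [MetricSpace X] [ProperSpace X] [MulAction Γ X]
  [IsIsometricSMul Γ X] [TopologicalSpace B] [CompactSpace B] [T2Space B] [MulAction Γ B]
  [ContinuousConstSMul Γ B] {L : Leaf Γ X B} {a : AffIn L}

/-- **the chains of a frame with dense forward orbit become dense** -/
theorem DenseF.chains {v0 : X} (h : DenseF L v0) (r : RateQ a) (T : Tens L) (w : X) :
    ∃ (R : ℕ → E2 ≃L[ℝ] E2) (S : ℕ → Fm E2 ≃L[ℝ] Fm E2) (u : ℕ → X) (n : ℕ → ℕ)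
      (A : ℕ → E2 ≃L[ℝ] E2) (Lc : ℕ → Fm E2 ≃L[ℝ] Fm E2) (w' : ℕ → X),
      (∀ i, (zdk r T).BC v0 0 (R i) (S i) (u i)) ∧
      (∀ i, Ch (zdk r T).St (u i) (n i) (A i) (Lc i) (w' i)) ∧ Tendsto n atTop atTop ∧
      TendstoUniformlyOn (fun i => (zdk r T).N (w' i)) ((zdk r T).N w) atTop (ball 0 1) := by
  obtain ⟨t, b, g, ht, hlim⟩ := h.seq_fwd w
  have hT := r.T0_pos
  set n : ℕ → ℕ := fun i => ⌊t i / r.T0⌋₊ with hn
  set s : ℕ → ℝ := fun i => if 0 ≤ t i then t i - n i * r.T0 else 0 with hs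
  have hs1 : ∀ i, |s i| ≤ r.T0 := by
    intro i
    rw [hs]
    simp only
    split_ifs with h0
    · have h1 : ((n i : ℕ) : ℝ) ≤ t i / r.T0 := Nat.floor_le (div_nonneg h0 hT.le)
      have h2 : t i / r.T0 < (n i : ℝ) + 1 := Nat.lt_floor_add_one _
      rw [le_div_iff₀ hT] at h1
      rw [div_lt_iff₀ hT] at h2
      rw [abs_le]
      constructor <;> nlinarith
    · rw [abs_zero]
      exact hT.le
  set u : ℕ → X := fun i => L.rot (b i) (L.φ (s i) v0) with hu
  have hBC := fun i : ℕ => r.BC_ex v0 (p := 0) (by simp) (v' := u i)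
    (by rw [hu]; simp only [L.em_rot, L.em_φ])
    (by
      rw [hu]
      simp only [L.lv_rot, L.lv_φ, add_sub_cancel_left]
      exact hs1 i)
    (by
      rw [hu, a.pt_zero]
      rw [Vale.Agent.P207.N4.H147.ep_rot, Vale.Agent.P207.N4.H147.ep_φ])
  choose R S hRS using hBC
  choose A Lc hch using fun i => r.chain (n i) (u i)
  refine ⟨R, S, u, n, A, Lc, fun i => L.φ (n i * r.T0) (u i), hRS, hch, ?_, ?_⟩
  · have h1 : Tendsto (fun i => t i / r.T0) atTop atTop := ht.atTop_div_const hT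
    exact (tendsto_nat_floor_atTop).comp h1
  · refine a.Nf_unif_smul T (g := g) ?_
    refine hlim.congr' ?_
    filter_upwards [ht.eventually_ge_atTop 0] with i hi
    rw [hu]
    simp only
    rw [← L.rot_φ, ← L.φ_add]
    have h1 : n i * r.T0 + s i = t i := by
      rw [hs]
      simp only [if_pos hi]
      ring
    rw [h1]

/-- **a frame whose chains become dense** -/
theorem exists_v0 (r : RateQ a) (T : Tens L) : ∃ v0 : X, DenseF L v0 ∧ ∀ w : X,
    ∃ (R : ℕ → E2 ≃L[ℝ] E2) (S : ℕ → Fm E2 ≃L[ℝ] Fm E2) (u : ℕ → X) (n : ℕ → ℕ)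
      (A : ℕ → E2 ≃L[ℝ] E2) (Lc : ℕ → Fm E2 ≃L[ℝ] Fm E2) (w' : ℕ → X),
      (∀ i, (zdk r T).BC v0 0 (R i) (S i) (u i)) ∧
      (∀ i, Ch (zdk r T).St (u i) (n i) (A i) (Lc i) (w' i)) ∧ Tendsto n atTop atTop ∧
      TendstoUniformlyOn (fun i => (zdk r T).N (w' i)) ((zdk r T).N w) atTop (ball 0 1) := by
  obtain ⟨v0, h⟩ := exists_dense_frame L
  exact ⟨v0, h, h.chains r T⟩

end Vale.Agent.P207.N4.H387
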