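import Vale.Agent.P207.H387.X2
import Vale.Agent.P207.H734.TyC
import Vale.Agent.P207.H686.K.Close

/-!
# P207, THEOREM Q'': the chains of a frame with dense forward orbit are dense
-/

set_option linter.all false

open Set Filter Topology Metric
open scoped ContDiff

noncomputable section

namespace Vale.Agent.P207.N4.H387

open Vale.Agent.P207.N3 Vale.Agent.P207.N3.Ten Vale.Agent.P207.N4.Ten Vale.Agent.P207.H751
open Vale.Agent.P207.H686
open Vale.Agent.P207.H734 (Rch DenseFrom SmClose)
open Vale.Agent.P207.N4.H751 (AffIn RateQ zdk)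

/-- steps after a composed move -/
theorem rch_ch {k0 : ℕ} {E W X : Type} [NormedAddCommGroup E] [NormedSpace ℝ E]
    [NormedAddCommGroup W] [NormedSpace ℝ W] {D : ZDk k0 E W X} {v u w : X} {B₀ : E ≃L[ℝ] E} {n : ℕ}
    {A : E ≃L[ℝ] E} {L : W ≃L[ℝ] W} (h : Rch D v B₀ u) (hc : Ch D.St u n A L w) :
    ∃ B' : E ≃L[ℝ] E, Rch D v B' w := by
  induction hc with
  | zero => exact ⟨B₀, h⟩
  | succ h1 h2 ih =>
    obtain ⟨B', hB⟩ := ih
    exact ⟨_, Rch.st hB h2⟩

/-- 686's closeness in 734's words -/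
theorem smClose {k0 : ℕ} {E W X : Type} [NormedAddCommGroup E] [NormedSpace ℝ E]
    [FiniteDimensional ℝ E] [NormedAddCommGroup W] [NormedSpace ℝ W] [FiniteDimensional ℝ W]
    (D : ZDk k0 E W X) : SmClose D := fun w η hη => D.sm_close w hη

variable [Dim]

variable {Γ X B : Type} [Group Γ] [MetricSpace X] [ProperSpace X] [MulAction Γ X]
  [IsIsometricSMul Γ X] [TopologicalSpace B] [CompactSpace B] [T2Space B] [MulAction Γ B]
  [ContinuousConstSMul Γ B] {L : Leaf Γ X B} {a : AffIn L}

/-- **the chains from a frame with dense forward orbit are dense** -/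
theorem DenseF.denseFrom {v0 : X} (h : DenseF L v0) (r : RateQ a) (T : Tens L) :
    DenseFrom (zdk r T) v0 := by
  intro w
  obtain ⟨R, S, u, n, A, Lc, w', h1, h2, -, h4⟩ := h.chains r T w
  have h5 := fun i => rch_ch (Rch.bc (Rch.refl v0) (h1 i)) (h2 i)
  choose A' hA' using h5
  exact ⟨A', w', hA', h4⟩

end Vale.Agent.P207.N4.H387
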